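import Vale.Agent.P097.H531.CD.Sizes

/-! # P097 / case [c], row A5.GROWTH: the sizes in the window, for large `s`

Port of `H531/CD/Sizes.lean`; `σ = (2 s) ^ n`, `D ≥ 1 / σ`, heights in the strip `(b / 2, b)`. -/

set_option linter.all false

open Filter Topology Set

namespace Vale.Agent.P097.H557.DE

open Vale.Agent.P097.CD

/-- sizes in the window (part 1), strip version -/
structure NuS (C₁ e₁ CL b y D r K σ : ℝ) : Prop where
  D0 : 0 < D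
  r0 : 0 < r
  K0 : 0 ≤ K
  C1 : 1 ≤ C₁
  σ1 : 1 ≤ σ
  h1 : C₁ * (r * Real.exp (K + 4)) ≤ (σ⁻¹) ^ 6
  h1e : r * Real.exp (K + 4) ≤ e₁
  h1a : r * Real.exp (K + 4) ≤ 1 / 16
  h1b : r * Real.exp (K + 4) ≤ b / 64
  h1d : r * Real.exp (K + 4) ≤ D / 16
  h2 : b / 2 ≤ y - D * (K + 6)
  hb : y + D * (K + 6) ≤ b
  h3 : y + D * (K + 4) ≤ σ
  h4 : Real.log (1 / r) + K + 4 ≤ σ
  h5 : CL ≤ σ
  h6 : (σ⁻¹) ^ 4 ≤ D / 8

/-- the facts on `s` -/
structure SzS (C₁ e₁ e₂ CL CS l ε₁ b N σ s R : ℝ) : Prop where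
  s10 : 10 ≤ s
  N0 : 0 ≤ N
  L11 : 10 ^ 11 * (N + 1) ^ 4 ≤ Real.log s
  Rd : R = Real.exp (-s) * Real.exp (Real.log s ^ 3 / 2 + 4)
  σs : 2 * s ≤ σ
  lσ : Real.log σ = N * (Real.log 2 + Real.log s)
  c1 : R * (C₁ * σ ^ 6) ≤ 1
  c2 : R * 1 ≤ e₁
  c2b : R * 64 ≤ b
  c3 : R * (64 * σ) ≤ 1
  c5 : R * (3 * 10 ^ 10 * 7 ^ 4 * σ ^ 12) ≤ ε₁
  c6 : R * σ ^ 2 ≤ ε₁
  c7 : R * (20 * CS * C₁ * σ) ≤ 1
  c8 : R * 6 ≤ e₂
  b4 : Real.log s ^ 3 ≤ 1 / 4 * s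
  b9 : 4 * 5 * 17 * 1600 * N * Real.log s +
    (17 * 400 * (120 + 4 * (N * Real.log 2)) + 60 + 100) ≤ Real.log s ^ 3 / 4
  b10 : 1600 * N * Real.log s + 400 * (120 + 4 * (N * Real.log 2)) ≤ Real.log s ^ 3 / 4
  b13 : Real.log CL - Real.log ε₁ + 3 + 4 * (N * Real.log 2) +
    800 * (120 + 4 * (N * Real.log 2)) ≤ Real.log s
  b15 : CL + l + 4 + 200 * CS + b ≤ s
  b17 : 100 * CS / ε₁ ≤ s

theorem ev_SzS (C₁ : ℝ) {e₁ : ℝ} {e₂ : ℝ} (CL CS l : ℝ) {ε₁ b : ℝ} (n : ℕ) (hn : 1 ≤ n)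
    (he₁ : 0 < e₁) (he₂ : 0 < e₂) (hε0 : 0 < ε₁) (hb : 0 < b) :
    ∀ᶠ s : ℝ in atTop, ∃ R, SzS C₁ e₁ e₂ CL CS l ε₁ b n ((2 * s) ^ n) s R := by
  filter_upwards [big (C₁ * (2 ^ n) ^ 6) (n * 6), big (1 / e₁) 0, big (64 / b) 0,
    big (64 * 2 ^ n) n, big (3 * 10 ^ 10 * 7 ^ 4 * (2 ^ n) ^ 12 / ε₁) (n * 12),
    big ((2 ^ n) ^ 2 / ε₁) (n * 2), big (20 * CS * C₁ * 2 ^ n) n,
    big (6 / e₂) 0, log_le 3 (1 / 4) (by norm_num),
    cub (4 * 5 * 17 * 1600 * n) (17 * 400 * (120 + 4 * (n * Real.log 2)) + 60 + 100),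
    cub (1600 * n) (400 * (120 + 4 * (n * Real.log 2))),
    Real.tendsto_log_atTop.eventually_ge_atTop (10 ^ 11 * ((n : ℝ) + 1) ^ 4),
    Real.tendsto_log_atTop.eventually_ge_atTop (Real.log CL - Real.log ε₁ + 3 +
      4 * (n * Real.log 2) + 800 * (120 + 4 * (n * Real.log 2))),
    eventually_ge_atTop (10 : ℝ), eventually_ge_atTop (CL + l + 4 + 200 * CS + b),
    eventually_ge_atTop (100 * CS / ε₁)] with
    s a1 a2 a2b a3 a5 a6 a7 a8 b4 b9 b10 b12 b13 s10 b15 b17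
  rw [pow_zero, mul_one] at a2 a2b a8
  have hs0 : 0 < s := by linarith
  have hs2 : 1 ≤ 2 * s := by linarith
  have hσs : 2 * s ≤ (2 * s) ^ n := le_self_pow₀ hs2 (by omega)
  refine ⟨_, s10, Nat.cast_nonneg n, b12, rfl, hσs, ?_, key_R one_pos ?_, key_R he₁ ?_,
    ?_, key_R one_pos ?_, key_R hε0 ?_, key_R hε0 ?_, key_R one_pos ?_, key_R he₂ ?_, b4, b9, b10,
    b13, b15, b17⟩
  · rw [Real.log_pow, Real.log_mul (by norm_num) hs0.ne']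
  · rw [div_one]
    refine le_trans (le_of_eq ?_) a1
    rw [mul_pow, mul_pow, ← pow_mul s]; ring
  · exact a2
  · have h := key_R (s := s) (E := Real.exp (Real.log s ^ 3 / 2 + 4)) (X := 64) (Z := b) hb a2b
    exact h
  · rw [div_one]
    refine le_trans (le_of_eq ?_) a3
    rw [mul_pow]; ring
  · refine le_trans (le_of_eq ?_) a5
    rw [mul_pow, mul_pow, ← pow_mul s]; ring
  · refine le_trans (le_of_eq ?_) a6
    rw [mul_pow, mul_pow, ← pow_mul s]; ring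
  · rw [div_one]
    refine le_trans (le_of_eq ?_) a7
    rw [mul_pow]; ring
  · exact a8

section
variable {C₁ e₁ e₂ CL CS l ε₁ b N σ s R D y : ℝ}

theorem SzS.R0 (Z : SzS C₁ e₁ e₂ CL CS l ε₁ b N σ s R) : 0 < R := by rw [Z.Rd]; positivity

theorem SzS.L1 (Z : SzS C₁ e₁ e₂ CL CS l ε₁ b N σ s R) : 10 ^ 11 ≤ Real.log s := by
  have h1 : (1 : ℝ) ≤ (N + 1) ^ 4 := one_le_pow₀ (by linarith [Z.N0])
  have h2 := Z.L11
  nlinarith

theorem SzS.L0 (Z : SzS C₁ e₁ e₂ CL CS l ε₁ b N σ s R) : 0 < Real.log s :=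
  lt_of_lt_of_le (by norm_num) Z.L1

theorem SzS.L3 (Z : SzS C₁ e₁ e₂ CL CS l ε₁ b N σ s R) : 20 ≤ Real.log s ^ 3 := by
  have h1 : (20 : ℝ) ≤ (10 ^ 11) ^ 3 := by norm_num
  exact h1.trans (pow_le_pow_left₀ (by norm_num) Z.L1 3)

theorem SzS.rR (Z : SzS C₁ e₁ e₂ CL CS l ε₁ b N σ s R) : Real.exp (-s) ≤ R := by
  have h1 : 1 ≤ Real.exp (Real.log s ^ 3 / 2 + 4) :=
    Real.one_le_exp (by have := Z.L3; linarith)
  rw [Z.Rd]
  exact le_mul_of_one_le_right (Real.exp_pos _).le h1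

theorem SzS.s0 (Z : SzS C₁ e₁ e₂ CL CS l ε₁ b N σ s R) : 0 < s := by linarith [Z.s10]

theorem SzS.σ20 (Z : SzS C₁ e₁ e₂ CL CS l ε₁ b N σ s R) : 20 ≤ σ := by
  linarith [Z.s10, Z.σs]

theorem SzS.K₁e (Z : SzS C₁ e₁ e₂ CL CS l ε₁ b N σ s R) :
    400 * (60 + 4 * Real.log σ + 60) =
      1600 * N * Real.log s + 400 * (120 + 4 * (N * Real.log 2)) := by
  rw [Z.lσ]; ring

theorem SzS.K₁s (Z : SzS C₁ e₁ e₂ CL CS l ε₁ b N σ s R) :
    400 * (60 + 4 * Real.log σ + 60) ≤ s := by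
  rw [Z.K₁e]
  have h1 := Z.b10
  have h2 := Z.b4
  have h3 := Z.s0
  linarith

theorem SzS.K₁1 (Z : SzS C₁ e₁ e₂ CL CS l ε₁ b N σ s R) :
    1 ≤ 400 * (60 + 4 * Real.log σ + 60) := by
  have h2 : 0 ≤ Real.log σ := Real.log_nonneg (by linarith [Z.σ20])
  linarith

theorem SzS.Dinv (Z : SzS C₁ e₁ e₂ CL CS l ε₁ b N σ s R) (hD : 1 / σ ≤ D) : 1 ≤ D * σ :=
  (div_le_iff₀ (by linarith [Z.σ20] : (0 : ℝ) < σ)).1 hD

theorem SzS.D0 (Z : SzS C₁ e₁ e₂ CL CS l ε₁ b N σ s R) (hD : 1 / σ ≤ D) : 0 < D :=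
  lt_of_lt_of_le (one_div_pos.2 (by linarith [Z.σ20])) hD

theorem SzS.nu (Z : SzS C₁ e₁ e₂ CL CS l ε₁ b N σ s R) (hC₁ : 1 ≤ C₁) (hCL : 1 ≤ CL)
    (hCS : 1 ≤ CS) (hl : 0 ≤ l) (hb : 0 < b) (hD1 : 1 / σ ≤ D)
    (hy1 : b / 2 ≤ y - D * Real.log s ^ 3) (hy2 : y + D * (Real.log s ^ 3 - 1) ≤ b) :
    NuS C₁ e₁ CL b y D (Real.exp (-s)) (Real.log s ^ 3 / 2) σ := by
  have hs10 := Z.s10
  have hL3 := Z.L3
  have hD0 := Z.D0 hD1
  have hDinv := Z.Dinv hD1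
  have hσ2 := Z.σs
  have hσ20 := Z.σ20
  have hσ0 : 0 < σ := by linarith
  have hs0 : 0 < s := by linarith
  have hR0 := Z.R0
  have c3 := Z.c3
  have c3' : R ≤ 1 / 16 := by nlinarith
  have c3d : R ≤ D / 16 := by
    have h3 : (R * 16) * σ ≤ D * σ := by nlinarith
    have h4 := le_of_mul_le_mul_right h3 hσ0
    linarith
  have hlogr : Real.log (1 / Real.exp (-s)) = s := by
    rw [one_div, ← Real.exp_neg, neg_neg, Real.log_exp]
  have hRd := Z.Rd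
  have b4 := Z.b4
  have b15 := Z.b15
  refine ⟨hD0, Real.exp_pos _, by linarith, hC₁, by linarith, ?_, ?_, ?_, ?_, ?_, ?_, ?_, ?_, ?_,
    ?_, ?_⟩
  · rw [← hRd, inv_pow, ← one_div, le_div_iff₀ (by positivity)]
    refine le_trans (le_of_eq ?_) Z.c1
    ring
  · rw [← hRd]; have := Z.c2; linarith
  · rw [← hRd]; exact c3'
  · rw [← hRd]; have := Z.c2b; linarith
  · rw [← hRd]; exact c3d
  · have : D * (Real.log s ^ 3 / 2 + 6) ≤ D * Real.log s ^ 3 :=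
      mul_le_mul_of_nonneg_left (by linarith) hD0.le
    linarith
  · have : D * (Real.log s ^ 3 / 2 + 6) ≤ D * (Real.log s ^ 3 - 1) :=
      mul_le_mul_of_nonneg_left (by linarith) hD0.le
    linarith
  · have : D * (Real.log s ^ 3 / 2 + 4) ≤ D * (Real.log s ^ 3 - 1) :=
      mul_le_mul_of_nonneg_left (by linarith) hD0.le
    linarith
  · rw [hlogr]; linarith
  · linarith
  · rw [inv_pow, ← one_div, div_le_iff₀ (by positivity)]
    have h1 : 8 ≤ σ ^ 3 := by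
      have := pow_le_pow_left₀ (by norm_num) hσ20 3
      linarith
    have h2 : D / 8 * σ ^ 4 = (D * σ) * (σ ^ 3 / 8) := by ring
    rw [h2]
    exact one_le_mul_of_one_le_of_one_le hDinv (by linarith)

theorem SzS.pl (Z : SzS C₁ e₁ e₂ CL CS l ε₁ b N σ s R) (hCL : 1 ≤ CL) (hε0 : 0 < ε₁)
    (hε1 : ε₁ ≤ 1) {K₁ : ℝ} (hK₁ : K₁ = 400 * (60 + 4 * Real.log σ + 60)) :
    200000 * (Real.log (CL * σ ^ 4 * Real.exp 2 / (ε₁ / K₁)) + K₁ + 1) ^ 4 /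
      (Real.log s ^ 3 / 2 - K₁) ^ 2 +
    600 * (Real.log (CL * σ ^ 4 * Real.exp 2 / (ε₁ / K₁)) + K₁ + 1) ^ 2 /
      (Real.log s ^ 3 / 2 - K₁) < 1 := by
  have hs10 := Z.s10
  have hσ20 := Z.σ20
  have hs0 : 0 < s := by linarith
  have hσ1 : 1 ≤ σ := by linarith
  have hσ0 : 0 < σ := by linarith
  have hK₁e : K₁ = 1600 * N * Real.log s + 400 * (120 + 4 * (N * Real.log 2)) := by
    rw [hK₁]; exact Z.K₁e
  have hK₁1 : 1 ≤ K₁ := by rw [hK₁]; exact Z.K₁1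
  have hK₁0 : 0 < K₁ := by linarith
  have hlσ := Z.lσ
  have hK₁4 : K₁ ≤ Real.log s ^ 3 / 4 := by rw [hK₁e]; exact Z.b10
  have hL0' := Z.L0
  have b13 := Z.b13
  have hL11 := Z.L11
  have hN0 := Z.N0
  set L := Real.log s with hL
  set X := Real.log (CL * σ ^ 4 * Real.exp 2 / (ε₁ / K₁)) + K₁ + 1 with hX
  have hX1 : Real.log (CL * σ ^ 4 * Real.exp 2 / (ε₁ / K₁)) =
      Real.log CL + 4 * (N * (Real.log 2 + L)) + 2 - (Real.log ε₁ - Real.log K₁) := by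
    rw [Real.log_div (by positivity) (by positivity), Real.log_div hε0.ne' hK₁0.ne',
      Real.log_mul (by positivity) (by positivity), Real.log_mul (by positivity) (by positivity),
      Real.log_exp, Real.log_pow, hlσ]
    norm_num
  have hX2 : Real.log K₁ ≤ K₁ := (Real.log_le_sub_one_of_pos hK₁0).trans (by linarith)
  have hNL : 0 ≤ N * L := mul_nonneg hN0 hL0'.le
  have hX4 : X ≤ 4000 * ((N + 1) * L) := by
    rw [hX, hX1]
    linarith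
  have hX0 : 0 ≤ X := by
    have h1 : 0 ≤ Real.log (CL * σ ^ 4 * Real.exp 2 / (ε₁ / K₁)) := by
      apply Real.log_nonneg
      rw [le_div_iff₀ (by positivity), one_mul]
      have h3 : ε₁ / K₁ ≤ 1 := by
        rw [div_le_one hK₁0]; linarith
      have h5 : (1 : ℝ) ≤ σ ^ 4 := one_le_pow₀ hσ1
      have h6 : (1 : ℝ) ≤ Real.exp 2 := Real.one_le_exp (by norm_num)
      have h7 : 1 ≤ CL * σ ^ 4 := one_le_mul_of_one_le_of_one_le hCL h5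
      have h8 : 1 ≤ CL * σ ^ 4 * Real.exp 2 := one_le_mul_of_one_le_of_one_le h7 h6
      linarith
    rw [hX]; linarith
  clear_value X
  have hKm : L ^ 3 / 4 ≤ L ^ 3 / 2 - K₁ := by linarith
  have hL34 : 0 < L ^ 3 / 4 := by positivity
  clear_value L
  set M := N + 1 with hM
  have hM1 : 1 ≤ M := by linarith
  clear_value M
  have p1 : 200000 * X ^ 4 / (L ^ 3 / 2 - K₁) ^ 2 ≤
      200000 * (4000 * (M * L)) ^ 4 / (L ^ 3 / 4) ^ 2 := by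
    apply div_le_div₀ (by positivity) _ (by positivity) (pow_le_pow_left₀ hL34.le hKm 2)
    exact mul_le_mul_of_nonneg_left (pow_le_pow_left₀ hX0 hX4 4) (by norm_num)
  have p2 : 600 * X ^ 2 / (L ^ 3 / 2 - K₁) ≤ 600 * (4000 * (M * L)) ^ 2 / (L ^ 3 / 4) := by
    apply div_le_div₀ (by positivity) _ (by positivity) hKm
    exact mul_le_mul_of_nonneg_left (pow_le_pow_left₀ hX0 hX4 2) (by norm_num)
  have hM4 : (1 : ℝ) ≤ M ^ 4 := one_le_pow₀ hM1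
  have hM2 : M ^ 2 ≤ M ^ 4 := pow_le_pow_right₀ hM1 (by norm_num)
  have p3 : 200000 * (4000 * (M * L)) ^ 4 / (L ^ 3 / 4) ^ 2 ≤ 1 / 10 := by
    rw [div_le_iff₀ (by positivity)]
    have h1 : (10 ^ 11 * M ^ 4) ^ 2 * L ^ 4 ≤ L ^ 2 * L ^ 4 :=
      mul_le_mul_of_nonneg_right (pow_le_pow_left₀ (by positivity) hL11 2) (by positivity)
    have h1' : (10 ^ 11) ^ 2 * (M ^ 4 * L ^ 4) ≤ (10 ^ 11 * M ^ 4) ^ 2 * L ^ 4 := by
      have h5 : (10 ^ 11 * M ^ 4) ^ 2 * L ^ 4 = (10 ^ 11) ^ 2 * (M ^ 4 * (M ^ 4 * L ^ 4)) := by ring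
      rw [h5]
      apply mul_le_mul_of_nonneg_left _ (by norm_num)
      exact le_mul_of_one_le_left (by positivity) hM4
    have h2 : 200000 * (4000 * (M * L)) ^ 4 = 200000 * 4000 ^ 4 * (M ^ 4 * L ^ 4) := by ring
    have h3 : 1 / 10 * (L ^ 3 / 4) ^ 2 = 1 / 160 * (L ^ 2 * L ^ 4) := by ring
    rw [h2, h3]
    have h4 : 0 ≤ M ^ 4 * L ^ 4 := by positivity
    linarith
  have p4 : 600 * (4000 * (M * L)) ^ 2 / (L ^ 3 / 4) ≤ 1 / 2 := by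
    rw [div_le_iff₀ (by positivity)]
    have h1 : 10 ^ 11 * M ^ 4 * L ^ 2 ≤ L * L ^ 2 :=
      mul_le_mul_of_nonneg_right hL11 (by positivity)
    have h1' : 10 ^ 11 * (M ^ 2 * L ^ 2) ≤ 10 ^ 11 * M ^ 4 * L ^ 2 := by
      have h5 : 10 ^ 11 * M ^ 4 * L ^ 2 = 10 ^ 11 * (M ^ 4 * L ^ 2) := by ring
      rw [h5]
      apply mul_le_mul_of_nonneg_left _ (by norm_num)
      exact mul_le_mul_of_nonneg_right hM2 (by positivity)
    have h2 : 600 * (4000 * (M * L)) ^ 2 = 600 * 4000 ^ 2 * (M ^ 2 * L ^ 2) := by ring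
    have h3 : 1 / 2 * (L ^ 3 / 4) = 1 / 8 * (L * L ^ 2) := by ring
    rw [h2, h3]
    have h4 : 0 ≤ M ^ 2 * L ^ 2 := by positivity
    linarith
  linarith

theorem SzS.nu2 (Z : SzS C₁ e₁ e₂ CL CS l ε₁ b N σ s R) (hCL : 1 ≤ CL) (hCS : 1 ≤ CS)
    (hl : 0 ≤ l) (hb : 0 < b) (hε0 : 0 < ε₁) (hε1 : ε₁ ≤ 1) (hD1 : 1 / σ ≤ D) (hD2 : D ≤ b)
    {K₁ : ℝ} (hK₁ : K₁ = 400 * (60 + 4 * Real.log σ + 60)) :
    Nu2 CL σ (Real.exp (-s)) l y D (Real.log s ^ 3 / 2) K₁ ε₁ := by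
  have hs10 := Z.s10
  have hσ2 := Z.σs
  have hσ20 := Z.σ20
  have hσ0 : 0 < σ := by linarith
  have hs0 : 0 < s := by linarith
  have hK₁e : K₁ = 1600 * N * Real.log s + 400 * (120 + 4 * (N * Real.log 2)) := by
    rw [hK₁]; exact Z.K₁e
  have hK₁1 : 1 ≤ K₁ := by rw [hK₁]; exact Z.K₁1
  have hK₁s : K₁ ≤ s := by rw [hK₁]; exact Z.K₁s
  have hK₁σ : K₁ ≤ σ := by linarith
  have hL0' := Z.L0
  have hR0 := Z.R0
  have hrR := Z.rR
  have hD0 := Z.D0 hD1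
  have hDinv := Z.Dinv hD1
  have b15 := Z.b15
  have hN0 := Z.N0
  have hDσ : D ≤ σ := by linarith
  refine ⟨hε0, hε1, hK₁1, ?_, Z.pl hCL hε0 hε1 hK₁, ?_, ?_⟩
  · have b9 := Z.b9
    have h1 := Z.L3
    have h2 : 0 ≤ N * Real.log s := mul_nonneg hN0 hL0'.le
    linarith
  · -- q
    have hm : 1 / σ ≤ min D 1 := le_min hD1 (by
      rw [div_le_one hσ0]; linarith)
    have hm0 : 0 < 1 / σ := by positivity
    have q1 : 3 * 10 ^ 10 * (5 * σ + l + 1) ^ 4 / (min D 1) ^ 6 ≤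
        3 * 10 ^ 10 * (7 * σ) ^ 4 / (1 / σ) ^ 6 := by
      apply div_le_div₀ (by positivity) _ (by positivity) (pow_le_pow_left₀ hm0.le hm 6)
      apply mul_le_mul_of_nonneg_left _ (by norm_num)
      exact pow_le_pow_left₀ (by positivity) (by linarith) 4
    have q2 : 3 * 10 ^ 10 * (7 * σ) ^ 4 / (1 / σ) ^ 6 = 3 * 10 ^ 10 * 7 ^ 4 * σ ^ 10 := by
      rw [one_div, inv_pow, div_inv_eq_mul]; ring
    rw [q2] at q1
    refine le_trans ?_ Z.c5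
    have q3 : 3 * 10 ^ 10 * (5 * σ + l + 1) ^ 4 / (min D 1) ^ 6 * Real.exp (-s) ≤
        3 * 10 ^ 10 * 7 ^ 4 * σ ^ 10 * R :=
      mul_le_mul q1 hrR (Real.exp_pos _).le (by positivity)
    have q4 := mul_le_mul (mul_le_mul q3 hK₁σ (by linarith) (by positivity)) hDσ hD0.le
      (by positivity)
    refine q4.trans (le_of_eq ?_)
    ring
  · -- rD
    have h1 : K₁ * Real.exp (-s) ≤ σ * R := mul_le_mul hK₁σ hrR (Real.exp_pos _).le hσ0.le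
    have h2 : σ * R * σ ≤ ε₁ := le_trans (le_of_eq (by ring)) Z.c6
    have h3 : ε₁ ≤ ε₁ * (D * σ) := le_mul_of_one_le_right hε0.le hDinv
    have h4 : σ * R * σ ≤ ε₁ * D * σ := by linarith
    exact h1.trans (le_of_mul_le_mul_right h4 hσ0)

theorem SzS.nu3 (Z : SzS C₁ e₁ e₂ CL CS l ε₁ b N σ s R) (hC₁ : 1 ≤ C₁) (hCL : 1 ≤ CL)
    (hCS : 1 ≤ CS) (hl : 0 ≤ l) (hb : 0 < b) (hε0 : 0 < ε₁)
    (hD1 : 1 / σ ≤ D) {K₁ v : ℝ}
    (hv : v = 60 + 4 * Real.log σ) (hK₁ : 400 * (v + 60) ≤ K₁) :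
    Nu3 C₁ e₂ CS y D (Real.exp (-s)) (Real.log s ^ 3 / 2) K₁ σ v ε₁ := by
  have hs10 := Z.s10
  have hσ2 := Z.σs
  have hσ20 := Z.σ20
  have hσ0 : 0 < σ := by linarith
  have hσ1 : 1 ≤ σ := by linarith
  have hs0 : 0 < s := by linarith
  have hσs : s ≤ σ := by linarith
  have hL0' := Z.L0
  have hR0 := Z.R0
  have hrR := Z.rR
  have hD0 := Z.D0 hD1
  have hDinv := Z.Dinv hD1
  have b15 := Z.b15
  have b17 := Z.b17
  have hlσ := Z.lσ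
  have hlσ0 : 0 ≤ Real.log σ := Real.log_nonneg hσ1
  have hL3 := Z.L3
  have b9 := Z.b9
  have c7 := Z.c7
  have c8 := Z.c8
  have hNL : 0 ≤ N * Real.log s := mul_nonneg Z.N0 hL0'.le
  have hN2 : 0 ≤ N * Real.log 2 := mul_nonneg Z.N0 (Real.log_nonneg (by norm_num))
  clear Z
  have he4 : Real.exp (v - 3) = Real.exp 57 * σ ^ 4 := by
    have h2 : σ ^ 4 = Real.exp (4 * Real.log σ) := by
      rw [show (4 : ℝ) * Real.log σ = (4 : ℕ) * Real.log σ by norm_num, Real.exp_nat_mul,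
        Real.exp_log hσ0]
    rw [h2, ← Real.exp_add, hv]
    congr 1; ring
  have hv3' : σ ^ 4 ≤ Real.exp (v - 3) := by
    rw [he4]
    exact le_mul_of_one_le_left (by positivity) (Real.one_le_exp (by norm_num))
  have hv3 : Real.exp (-(v - 3)) ≤ (σ ^ 4)⁻¹ := by
    rw [Real.exp_neg]
    exact inv_anti₀ (by positivity) hv3'
  have hsq : (10 * Real.exp (-(v - 3))) ^ 2 ≤ 100 * (σ ^ 8)⁻¹ := by
    have h1 : 10 * Real.exp (-(v - 3)) ≤ 10 * (σ ^ 4)⁻¹ :=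
      mul_le_mul_of_nonneg_left hv3 (by norm_num)
    have h2 := pow_le_pow_left₀ (by positivity) h1 2
    refine h2.trans (le_of_eq ?_)
    rw [mul_pow, inv_pow, ← pow_mul]
    norm_num
  refine ⟨?_, ?_, hK₁, ?_, ?_, ?_, by linarith⟩
  · rw [hv]; linarith
  · rw [hv, hlσ]; linarith
  · -- lab
    rw [le_div_iff₀ (by positivity)]
    have h1 : 10 * CS * σ ≤ σ ^ 4 := by
      have h2 : 10 * CS ≤ σ := by linarith
      have h3 : σ ≤ σ ^ 3 := le_self_pow₀ hσ1 (by norm_num)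
      calc 10 * CS * σ ≤ σ ^ 3 * σ := mul_le_mul_of_nonneg_right (h2.trans h3) hσ0.le
        _ = σ ^ 4 := by ring
    have h2 := h1.trans hv3'
    have h3 := mul_le_mul_of_nonneg_left h2 (Real.exp_pos (-s)).le
    refine le_trans (le_of_eq ?_) h3
    ring
  · -- cl
    have h1 : CS * σ ^ 2 * (10 * Real.exp (-(v - 3))) ^ 2 ≤
        CS * σ ^ 2 * (100 * (σ ^ 8)⁻¹) := mul_le_mul_of_nonneg_left hsq (by positivity)
    have h2 : CS * σ ^ 2 * (100 * (σ ^ 8)⁻¹) = 100 * CS / σ ^ 6 := by field_simp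
    rw [h2] at h1
    have h3 : 100 * CS / σ ^ 6 ≤ 1 / (2 * σ) := by
      rw [div_le_div_iff₀ (by positivity) (by positivity)]
      have h5 : σ ≤ σ ^ 5 := le_self_pow₀ hσ1 (by norm_num)
      have h6 : 200 * CS * σ ≤ σ ^ 5 * σ :=
        mul_le_mul_of_nonneg_right (by linarith) hσ0.le
      have h7 : σ ^ 5 * σ = σ ^ 6 := by ring
      linarith
    have h4 : CS * C₁ * (10 * Real.exp (-s)) ≤ 1 / (2 * σ) := by
      rw [le_div_iff₀ (by positivity)]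
      have h5 : CS * C₁ * (10 * Real.exp (-s)) * (2 * σ) ≤ CS * C₁ * (10 * R) * (2 * σ) := by
        apply mul_le_mul_of_nonneg_right _ (by positivity)
        apply mul_le_mul_of_nonneg_left _ (by positivity)
        linarith
      refine h5.trans (le_trans (le_of_eq ?_) c7)
      ring
    have h5 : 1 / (2 * σ) + 1 / (2 * σ) = 1 / σ := by field_simp; norm_num
    linarith
  · -- cs
    have h1 : CS * σ * (10 * Real.exp (-(v - 3))) ^ 2 ≤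
        CS * σ * (100 * (σ ^ 8)⁻¹) := mul_le_mul_of_nonneg_left hsq (by positivity)
    have h2 : CS * σ * (100 * (σ ^ 8)⁻¹) = 100 * CS / σ ^ 7 := by field_simp
    rw [h2] at h1
    refine h1.trans ?_
    rw [div_le_iff₀ (by positivity)]
    have h3 : 100 * CS ≤ ε₁ * s := by
      rw [div_le_iff₀ hε0] at b17
      linarith
    have h4 : s ≤ σ ^ 7 := hσs.trans (le_self_pow₀ hσ1 (by norm_num))
    exact h3.trans (mul_le_mul_of_nonneg_left h4 hε0.le)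

end

end Vale.Agent.P097.H557.DE
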