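import Vale.Agent.P097.H531.CD.G
import Vale.Agent.P097.H275.G.Defs
import Vale.Agent.P097.H557.DE.Sizes
import Vale.Agent.P097.H710.G.Q2

/-! # P097 / case [c], row A5.GROWTH: bounds of `g = F'` and `Q` in the window, the place

Port of `H531/CD/G.lean`, `H531/CD/Place.lean` to the strip. -/

set_option linter.all false

open Complex Metric Filter Topology Set
open scoped ComplexConjugate

namespace Vale.Agent.P097.H557.DE

open Vale.Agent.P097 Vale.Agent.P097.TA Vale.Agent.P097.H202 Vale.Agent.P097.SC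
open Vale.Agent.P097.H456.Fct

section
variable {Λ b : ℝ} {F q Q : ℂ → ℂ}

theorem dgS (B : CC.Bs Λ b F q Q) : DifferentiableOn ℂ (deriv F) (Str b) :=
  B.dF.deriv (isOpen_Str b)

theorem gpS (B : CC.Bs Λ b F q Q) : ∀ z ∈ Str b, deriv F (z + 1) = deriv F z := by
  intro z hz
  have h1 : (fun w => F (w + 1)) =ᶠ[𝓝 z] fun w => F w + 2 * Real.pi := by
    filter_upwards [(isOpen_Str b).mem_nhds hz] with w hw using B.Fp w hw
  rw [← deriv_comp_add_const, h1.deriv_eq, deriv_add_const]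

theorem gcS (B : CC.Bs Λ b F q Q) : ∀ z ∈ Str b, deriv F (conj z) = conj (deriv F z) := by
  intro z hz
  have hz' : conj z ∈ Str b := by
    rw [mem_Str, conj_im, abs_neg]; exact hz
  have h1 : F =ᶠ[𝓝 (conj z)] (conj ∘ F ∘ conj) := by
    filter_upwards [(isOpen_Str b).mem_nhds hz'] with w hw
    show F w = conj (F (conj w))
    rw [B.Fc w hw, conj_conj]
  have h2 := congrFun (deriv_conj_conj (𝕜 := ℂ) (f := F)) (conj z)
  rw [h1.deriv_eq, h2]
  simp [Function.comp]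

theorem re_mem_Str {b : ℝ} (hb : 0 < b) (x : ℝ) : (x : ℂ) ∈ Str b := by
  rw [mem_Str, ofReal_im, abs_zero]; exact hb

theorem gimS (B : CC.Bs Λ b F q Q) (x : ℝ) : (deriv F x).im = 0 := by
  have h1 := gcS B x (re_mem_Str B.b0 x)
  rw [conj_ofReal] at h1
  exact conj_eq_iff_im.1 h1.symm

theorem lowS (B : CC.Bs Λ b F q Q) : ∃ l : ℝ, 0 ≤ l ∧ ∀ x : ℝ, (deriv F x).im = 0 ∧
    Real.exp (-l) ≤ (deriv F x).re := by
  have hc : Continuous (fun x : ℝ => (deriv F x).re) :=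
    continuous_re.comp ((dgS B).continuousOn.comp_continuous continuous_ofReal
      fun x => re_mem_Str B.b0 x)
  obtain ⟨x₀, hx₀, hm⟩ := (isCompact_Icc (a := (0 : ℝ)) (b := 1)).exists_isMinOn
    ⟨0, by simp⟩ hc.continuousOn
  set m := (deriv F x₀).re with hm'
  have hm0 : 0 < m := B.gpos x₀
  have hper : Function.Periodic (fun x : ℝ => (deriv F x).re) 1 := by
    intro x
    show (deriv F ((x + 1 : ℝ) : ℂ)).re = (deriv F x).re
    rw [show ((x + 1 : ℝ) : ℂ) = (x : ℂ) + 1 by push_cast; ring, gpS B x (re_mem_Str B.b0 x)]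
  have hall : ∀ x : ℝ, m ≤ (deriv F x).re := by
    intro x
    obtain ⟨y, hy, hxy⟩ := hper.exists_mem_Ico₀ one_pos x
    rw [hxy]
    exact hm ⟨hy.1, hy.2.le⟩
  refine ⟨max 0 (-Real.log m), le_max_left _ _, fun x => ⟨gimS B x, ?_⟩⟩
  calc Real.exp (-max 0 (-Real.log m)) ≤ Real.exp (Real.log m) := by
        apply Real.exp_le_exp.2
        have := le_max_right 0 (-Real.log m)
        linarith
    _ = m := Real.exp_log hm0
    _ ≤ _ := hall x

end

section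
variable {Λ b : ℝ} {F q Q : ℂ → ℂ} {α p : ℂ → ℂ → ℂ}
variable {C₁ e₁ CL CS y D r K σ : ℝ}

theorem NuS.rho (N : NuS C₁ e₁ CL b y D r K σ) {τ : ℝ} (hτ : |τ| ≤ K + 4) :
    r * Real.exp (-τ) ≤ r * Real.exp (K + 4) :=
  mul_le_mul_of_nonneg_left (Real.exp_le_exp.2 (by have := (abs_le.1 hτ).1; linarith)) N.r0.le

/-- bound of `g` from Row L -/
theorem g_boundS
    (hax : ∀ {y ρ : ℝ} {A P : ℂ × ℂ → ℂ}, CD.Tu α p y ρ A P → y ≤ b ∧
      ∀ t : ℂ, |t.im| < y → A (t, 0) = F t ∧ P (t, 0) = q t)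
    (hP : ∀ {y ρ : ℝ} {A P : ℂ × ℂ → ℂ}, CD.Tu α p y ρ A P → ρ ≤ e₁ → 2 * ρ < y →
      ∃ θ, CD.Po F q y ρ A P θ ∧ CD.Lo1 ρ C₁ θ)
    (hL : ∀ {F q : ℂ → ℂ} {y ρ C₁ s : ℝ} {A P θ : ℂ × ℂ → ℂ},
      AnalyticOnNhd ℂ A (CD.Tb y ρ) → (∀ t : ℂ, |t.im| < y → A (t, 0) = F t) →
      CD.Po F q y ρ A P θ → CD.Lo1 ρ C₁ θ → 0 < ρ → ρ ≤ 1 → 4 * ρ < y → CL ≤ s →
      Real.log (1 / ρ) ≤ s → y ≤ s → 1 ≤ C₁ → C₁ * ρ ≤ (s⁻¹) ^ 6 → ∀ x : ℂ,
      |x.im| < y - (s⁻¹) ^ 4 → ‖deriv F x‖ ≤ CL * s ^ 4 / ρ)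
    (N : NuS C₁ e₁ CL b y D r K σ) (W : CD.Win α p y D r K) {τ : ℝ} (hτ : |τ| ≤ K + 4) {z : ℂ}
    (hz : |z.im| ≤ y + D * (τ - 1) - D / 2) : ‖deriv F z‖ ≤ CL * σ ^ 4 / (r * Real.exp (-τ)) := by
  have hD := N.D0
  have hr := N.r0
  have h2 := N.h2
  have hτ1 := (abs_le.1 hτ).1
  have hτ2 := (abs_le.1 hτ).2
  set ρ := r * Real.exp (-τ) with hρ
  have hρ0 : 0 < ρ := by positivity
  have hρm : ρ ≤ r * Real.exp (K + 4) := N.rho hτ
  have hρ16 : ρ ≤ 1 / 16 := hρm.trans N.h1a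
  have hρb : ρ ≤ b / 64 := hρm.trans N.h1b
  set y' := y + D * (τ - 1) - D / 4 with hy'
  have hyl : b / 2 ≤ y' := by
    have : D * (-(K + 5) + 0) ≤ D * (τ - 1) := mul_le_mul_of_nonneg_left (by linarith) hD.le
    nlinarith
  obtain ⟨A, P, T⟩ := W τ y' hτ (by linarith) (by rw [hy']; linarith)
  obtain ⟨θ, Pθ, Lθ⟩ := hP T (hρm.trans N.h1e) (by linarith)
  have hlog : Real.log (1 / ρ) ≤ σ := by
    have e1 : Real.log (1 / ρ) = Real.log (1 / r) + τ := by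
      rw [hρ, one_div, one_div, Real.log_inv, Real.log_inv, Real.log_mul hr.ne'
        (Real.exp_pos _).ne', Real.log_exp]
      ring
    have := N.h4
    rw [e1]
    linarith
  have hys : y' ≤ σ := by
    have h3 := N.h3
    have : D * (τ - 1) ≤ D * (K + 4) := mul_le_mul_of_nonneg_left (by linarith) hD.le
    linarith
  exact hL (y := y') (ρ := ρ) T.aA (fun t ht => ((hax T).2 t ht).1) Pθ Lθ hρ0 (by linarith)
    (by linarith) N.h5 hlog hys N.C1 ((mul_le_mul_of_nonneg_left hρm (by linarith [N.C1])).trans N.h1)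
    z (by have := N.h6; rw [hy']; linarith)

/-- bound of `Q` -/
theorem Q_bdS (B : CC.Bs Λ b F q Q) {l : ℝ} (hl : 0 ≤ l)
    (hlow : ∀ x : ℝ, (deriv F x).im = 0 ∧ Real.exp (-l) ≤ (deriv F x).re) (hCL : 1 ≤ CL)
    (N : NuS C₁ e₁ CL b y D r K σ)
    (hg : ∀ {τ : ℝ} {z : ℂ}, |τ| ≤ K + 4 → |z.im| ≤ y + D * (τ - 1) - D / 2 →
      ‖deriv F z‖ ≤ CL * σ ^ 4 / (r * Real.exp (-τ))) {z : ℂ} (hz : |z.im| ≤ y + K * D) :
    ‖Q z‖ ≤ 3 * 10 ^ 10 * (5 * σ + l + 1) ^ 4 / (min D 1) ^ 6 := by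
  have hD := N.D0
  have hr := N.r0
  have hK := N.K0
  have hσ := N.σ1
  have hNb := N.hb
  set R := min D 1 with hR
  have hR0 : 0 < R := lt_min hD one_pos
  have hRD : R ≤ D := min_le_left _ _
  have hx := H710.G.Q2.Q_bound (g := deriv F) (dgS B) B.dQ B.gQ (gpS B) hlow hl (A := 5 * σ)
    (Y := y + D * (K + 1)) (R := R) (by linarith) hR0 (min_le_right _ _) (by nlinarith) ?_ (z := z) ?_
  · exact hx
  · intro z hz
    have h1 := hg (τ := K + 3) (z := z) (by rw [abs_of_nonneg (by linarith)]; linarith)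
      (by nlinarith)
    refine h1.trans ?_
    -- `CL σ^4 e^{K+3} / r ≤ e^{5σ}`
    have e1 : CL * σ ^ 4 / (r * Real.exp (-(K + 3))) = CL * σ ^ 4 * Real.exp (Real.log (1 / r) + K + 3) := by
      have e2 : Real.exp (Real.log (1 / r) + K + 3) = 1 / r * Real.exp (K + 3) := by
        rw [add_assoc, Real.exp_add, Real.exp_log (by positivity)]
      rw [e2, Real.exp_neg]
      field_simp
    rw [e1]
    have h2 : Real.exp (Real.log (1 / r) + K + 3) ≤ Real.exp (σ - 1) := Real.exp_le_exp.2 (by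
      have := N.h4; linarith)
    have h3 : CL ≤ Real.exp (σ - 1) := N.h5.trans (by have := Real.add_one_le_exp (σ - 1); linarith)
    have h4 : σ ^ 4 ≤ Real.exp (3 * σ + 2) := by
      have h5 : σ ≤ Real.exp (σ - 1) := by have := Real.add_one_le_exp (σ - 1); linarith
      have h6 : σ ≤ Real.exp ((3 * σ + 2) / 4) := by
        have := Real.add_one_le_exp ((3 * σ + 2) / 4)
        have h7 : σ / 2 ≤ Real.exp (σ / 2 - 1) := by
          have := Real.add_one_le_exp (σ / 2 - 1); linarith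
        have h8 : (2 : ℝ) ≤ Real.exp 1 := by have := Real.add_one_le_exp (1 : ℝ); linarith
        calc σ = σ / 2 * 2 := by ring
          _ ≤ Real.exp (σ / 2 - 1) * Real.exp 1 := mul_le_mul h7 h8 (by norm_num) (Real.exp_pos _).le
          _ = Real.exp (σ / 2) := by rw [← Real.exp_add]; ring_nf
          _ ≤ _ := Real.exp_le_exp.2 (by linarith)
      calc σ ^ 4 ≤ Real.exp ((3 * σ + 2) / 4) ^ 4 := pow_le_pow_left₀ (by linarith) h6 4
        _ = Real.exp (3 * σ + 2) := by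
          rw [← Real.exp_nat_mul]; congr 1; push_cast; ring
    calc CL * σ ^ 4 * Real.exp (Real.log (1 / r) + K + 3)
        ≤ Real.exp (σ - 1) * Real.exp (3 * σ + 2) * Real.exp (σ - 1) := by
          apply mul_le_mul (mul_le_mul h3 h4 (by positivity) (Real.exp_pos _).le) h2
            (Real.exp_pos _).le (by positivity)
      _ = Real.exp (5 * σ) := by rw [← Real.exp_add, ← Real.exp_add]; congr 1; ring
  · nlinarith

theorem placeS {l K₁ ε₁ : ℝ} (B : CC.Bs Λ b F q Q) (hl : 0 ≤ l)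
    (hlow : ∀ x : ℝ, (deriv F x).im = 0 ∧ Real.exp (-l) ≤ (deriv F x).re) (hCL : 1 ≤ CL)
    (N : NuS C₁ e₁ CL b y D r K σ) (N2 : CD.Nu2 CL σ r l y D K K₁ ε₁)
    (hg : ∀ {τ : ℝ} {z : ℂ}, |τ| ≤ K + 4 → |z.im| ≤ y + D * (τ - 1) - D / 2 →
      ‖deriv F z‖ ≤ CL * σ ^ 4 / (r * Real.exp (-τ))) :
    ∃ x₀ : ℝ, ∀ z ∈ ball ((x₀ : ℂ) + y * I) (K₁ * D),
      ‖deriv F z‖ * r * K₁ ≤ ε₁ ∧ ‖Q z‖ * r * K₁ * D ≤ ε₁ := by
  have hD := N.D0
  have hr := N.r0
  have hσ := N.σ1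
  have hNb := N.hb
  have hb0 := B.b0
  have hK1 := N2.K1
  have hKK := N2.KK
  have hε0 := N2.ε0
  have hK1p : 0 < K₁ := by linarith
  have hKp : 0 < K := by linarith
  have h2 := N.h2
  have hy : 0 ≤ y := by nlinarith
  have hεB : ε₁ / K₁ ≤ CL * σ ^ 4 * Real.exp 2 := by
    -- ε ≤ B
    have h3 : ε₁ / K₁ ≤ 1 := by
      rw [div_le_one hK1p]
      linarith [N2.ε1]
    have h4 : 1 ≤ CL * σ ^ 4 * Real.exp 2 := by
      have h5 : (1 : ℝ) ≤ σ ^ 4 := one_le_pow₀ hσ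
      have h6 : (1 : ℝ) ≤ Real.exp 2 := Real.one_le_exp (by norm_num)
      have h7 : 1 ≤ CL * σ ^ 4 := one_le_mul_of_one_le_of_one_le hCL h5
      exact one_le_mul_of_one_le_of_one_le h7 h6
    linarith
  have hgr : ∀ z : ℂ, |z.im - y| < K * D →
      ‖deriv F z‖ ≤ CL * σ ^ 4 * Real.exp 2 / r * Real.exp ((z.im - y) / D) := by
    intro z hz
    have hz1 := (abs_lt.1 hz).1
    have hz2 := (abs_lt.1 hz).2
    have hzp : 0 ≤ z.im := by nlinarith
    set τ := (z.im - y) / D + 2 with hτ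
    have e1 : D * (τ - 1) = z.im - y + D := by rw [hτ]; field_simp; ring
    have hτa : |(z.im - y) / D| ≤ K := by
      rw [abs_div, abs_of_pos hD, div_le_iff₀ hD]; exact hz.le
    have h3 : |τ| ≤ K + 4 := by
      have h4 := abs_add_le ((z.im - y) / D) 2
      rw [abs_two] at h4
      rw [hτ]; linarith
    have h4 := hg h3 (z := z) (by rw [e1, abs_of_nonneg hzp]; linarith)
    refine h4.trans (le_of_eq ?_)
    rw [hτ, Real.exp_neg, Real.exp_add]
    field_simp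
  obtain ⟨x₀, hx₀⟩ := H710.G.Q2.place (g := deriv F) (Q := Q) (l := l) (dgS B) B.dQ B.gQ (gpS B)
    B.Qp hlow
    (y := y) (D := D) (r := r) (B := CL * σ ^ 4 * Real.exp 2) (ε := ε₁ / K₁) (K := K) (K₁ := K₁)
    hD hr (by positivity) hεB hK1p.le hKp hKK (by rw [abs_of_nonneg hy]; nlinarith) hgr N2.pl
  refine ⟨x₀, fun z hz => ⟨?_, ?_⟩⟩
  · have h3 := hx₀ z (mem_ball_iff_norm.1 hz).le
    have h4 : ‖deriv F z‖ * r * K₁ ≤ ε₁ / K₁ * K₁ :=
      mul_le_mul_of_nonneg_right h3.le hK1p.le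
    rwa [div_mul_cancel₀ _ hK1p.ne'] at h4
  · have h3 : |z.im| ≤ y + K * D := by
      have h4 : |z.im - y| < K₁ * D := by
        have h5 := abs_im_le_norm (z - ((x₀ : ℂ) + y * I))
        have h6 : (z - ((x₀ : ℂ) + y * I)).im = z.im - y := by simp
        rw [h6] at h5
        exact h5.trans_lt (mem_ball_iff_norm.1 hz)
      have h5 : |z.im| ≤ |z.im - y| + |y| := by
        have := abs_add_le (z.im - y) y
        simpa using this
      rw [abs_of_nonneg hy] at h5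
      have h6 : K₁ * D ≤ K * D := mul_le_mul_of_nonneg_right (by linarith) hD.le
      linarith
    have h4 := Q_bdS B hl hlow hCL N hg h3
    refine le_trans ?_ N2.q
    have h5 : 0 ≤ r * K₁ * D := by positivity
    calc ‖Q z‖ * r * K₁ * D = ‖Q z‖ * (r * K₁ * D) := by ring
      _ ≤ 3 * 10 ^ 10 * (5 * σ + l + 1) ^ 4 / (min D 1) ^ 6 * (r * K₁ * D) :=
        mul_le_mul_of_nonneg_right h4 h5
      _ = _ := by ring

end

end Vale.Agent.P097.H557.DE
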