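import Vale.Agent.P097.H531.CD.Sel

/-! # P097 / case [c], row (DE): selection of the heights for a bounded concave height function

`Y` concave, nondecreasing, `Y → b`.  Either `b - Y X ≤ 2 / X ^ (p + 1)` for all large `X`, or there
are arbitrarily large windows of length `(log s) ^ 3` with slope `D ≥ 1 / (2 s) ^ (p + 2)`. -/

set_option linter.all false

open Filter Topology Set

namespace Vale.Agent.P097.H557.DE

open Vale.Agent.P097.CD.Sel

/-- the windows -/
def HasWin (Y : ℝ → ℝ) (s₀ : ℝ) (p : ℕ) (S : ℝ) : Prop := ∃ s D : ℝ, S ≤ s ∧ 1 ≤ s ∧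
    1 / (2 * s) ^ (p + 2) ≤ D ∧ s₀ ≤ s - Real.log s ^ 3 ∧
    ∀ τ : ℝ, |τ| ≤ Real.log s ^ 3 → Y s + D * (τ - 1) ≤ Y (s + τ) ∧ Y (s + τ) ≤ Y s + D * τ

/-- no window after `S`: the unit slopes decrease faster than any power -/
theorem small_of_noWin {Y : ℝ → ℝ} {s₀ : ℝ} (p : ℕ) (hY : ConcaveOn ℝ (Ici s₀) Y)
    (hm : MonotoneOn Y (Ici s₀)) {S : ℝ} (hcon : ¬ HasWin Y s₀ p S) :
    ∀ᶠ X : ℝ in atTop, Y X - Y (X - 1) < 1 / X ^ (p + 2) := by
  unfold HasWin at hcon
  push Not at hcon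
  set δ : ℝ → ℝ := fun x => Y x - Y (x - 1) with hδ
  have δ0 : ∀ x, s₀ + 1 ≤ x → 0 ≤ δ x := fun x hx => sub_nonneg.2
    (hm (show s₀ ≤ x - 1 by linarith) (show s₀ ≤ x by linarith) (by linarith))
  have δa : ∀ a b, s₀ + 1 ≤ a → a ≤ b → δ b ≤ δ a := fun a b ha hab =>
    dl_anti hY (by linarith) hab
  -- the alternative at every `s`
  have alt : ∀ s, S ≤ s → 3 ≤ s → s₀ ≤ s - Real.log s ^ 3 - 1 →
      1 / (2 * s) ^ (p + 2) ≤ δ (s + Real.log s ^ 3 + 1) →
      δ (s + Real.log s ^ 3 + 1) < (1 - 1 / (2 * Real.log s ^ 3)) * δ (s - Real.log s ^ 3) := by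
    intro s h1 h2 h3 h4
    by_contra h5
    push Not at h5
    set K := Real.log s ^ 3 with hK
    have hl : 1 ≤ Real.log s := by
      rw [Real.le_log_iff_exp_le (by linarith)]
      have := Real.exp_one_lt_d9
      linarith
    have hK1 : 1 ≤ K := one_le_pow₀ hl
    have e1 : δ (s + K + 1) = Y (s + K + 1) - Y (s + K) := by
      simp only [hδ]; congr 2; ring
    have e2 : δ (s - K) = Y (s - K) - Y (s - K - 1) := rfl
    rw [e1, e2] at h5
    obtain ⟨D, hD1, hD2⟩ := Vale.Agent.P097.CD.Sel.lin hY hm hK1 h3 h5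
    rw [← e1] at hD1
    obtain ⟨τ, hτ1, hτ2⟩ := hcon s D h1 (by linarith) (h4.trans hD1) (by linarith)
    have h6 := hD2 τ hτ1
    exact absurd (hτ2 h6.1) (not_lt.2 h6.2)
  -- large `X`
  set s₁ := max (s₀ + 1) 1 with hs₁
  set δ₁ := δ s₁ with hδ₁
  have hlog : ∀ n : ℕ, ∀ c : ℝ, 0 < c → ∀ᶠ X : ℝ in atTop, Real.log X ^ n ≤ c * X := by
    intro n c hc
    have h1 := (Real.isLittleO_pow_log_id_atTop (n := n)).bound hc
    filter_upwards [h1, eventually_ge_atTop 1] with X h2 h3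
    rw [Real.norm_of_nonneg (pow_nonneg (Real.log_nonneg h3) n), id,
      Real.norm_of_nonneg (by linarith)] at h2
    exact h2
  have hq : (0 : ℝ) < (p : ℝ) + 4 := by positivity
  filter_upwards [eventually_ge_atTop (6 : ℝ), eventually_ge_atTop (2 * S),
    eventually_ge_atTop (2 * s₁), hlog 3 (1 / 16) (by norm_num),
    hlog 7 (1 / (12 * (p + 4))) (by positivity),
    eventually_ge_atTop (8 * (|s₀| + 1)), eventually_gt_atTop (2 * (|δ₁| + 1))] with
    X h6 hS hs hl3 hl7 ha hd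
  by_contra hge
  push Not at hge
  have hX0 : 0 < X := by linarith
  set L := Real.log X with hL
  have hL1 : 1 ≤ L := by
    rw [hL, Real.le_log_iff_exp_le (by linarith)]
    have := Real.exp_one_lt_d9
    linarith
  set K := L ^ 3 with hK
  have hK1 : 1 ≤ K := one_le_pow₀ hL1
  have hKX : K ≤ X / 16 := by linarith
  set T := 2 * K + 1 with hT
  have hs1 : s₀ + 1 ≤ s₁ := le_max_left _ _
  have hab := neg_abs_le s₀
  have hab' := le_abs_self s₀
  -- one step
  have hstep : ∀ x, X / 2 ≤ x → x ≤ X - T → δ (x + T) ≤ (1 - 1 / (2 * K)) * δ x := by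
    intro x hx1 hx2
    set s := x + K with hsd
    have hsX : s ≤ X := by linarith
    have hs3 : 3 ≤ s := by linarith
    set k := Real.log s ^ 3 with hk
    have hls : 1 ≤ Real.log s := by
      rw [Real.le_log_iff_exp_le (by linarith)]
      have := Real.exp_one_lt_d9
      linarith
    have hk1 : 1 ≤ k := one_le_pow₀ hls
    have hkK : k ≤ K := pow_le_pow_left₀ (by linarith) (Real.log_le_log (by linarith) hsX) 3
    have hb1 : δ X ≤ δ (s + k + 1) := δa _ _ (by linarith) (by linarith)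
    have hb2 : 1 / (2 * s) ^ (p + 2) ≤ 1 / X ^ (p + 2) :=
      div_le_div_of_nonneg_left (by norm_num) (by positivity)
        (pow_le_pow_left₀ (by linarith) (by linarith) _)
    have h7 := alt s (by linarith) hs3 (by linarith) (hb2.trans (hge.trans hb1))
    have h8 : δ (x + T) ≤ δ (s + k + 1) := δa _ _ (by linarith) (by linarith)
    have h9 : δ (s - k) ≤ δ x := δa _ _ (by linarith) (by linarith)
    have h10 : 0 ≤ δ x := δ0 _ (by linarith)
    have h11 : 1 / (2 * K) ≤ 1 / (2 * k) :=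
      div_le_div_of_nonneg_left (by norm_num) (by positivity) (by linarith)
    have h12 : 1 / (2 * k) ≤ 1 / 2 :=
      div_le_div_of_nonneg_left (by norm_num) (by norm_num) (by linarith)
    calc δ (x + T) ≤ δ (s + k + 1) := h8
      _ ≤ (1 - 1 / (2 * k)) * δ (s - k) := h7.le
      _ ≤ (1 - 1 / (2 * k)) * δ x := mul_le_mul_of_nonneg_left h9 (by linarith)
      _ ≤ (1 - 1 / (2 * K)) * δ x := mul_le_mul_of_nonneg_right (by linarith) h10
  -- iterate
  have hT0 : 0 < T := by linarith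
  set n : ℕ := ⌊X / (2 * T)⌋₊ with hn
  have hn1 : (n : ℝ) ≤ X / (2 * T) := Nat.floor_le (by positivity)
  have hn2 : X / (2 * T) < n + 1 := Nat.lt_floor_add_one _
  have hnT : (n : ℝ) * T ≤ X / 2 := by
    have h7 := mul_le_mul_of_nonneg_right hn1 hT0.le
    have e : X / (2 * T) * T = X / 2 := by field_simp
    rwa [e] at h7
  have hm0 : 0 ≤ 1 - 1 / (2 * K) := by
    have : 1 / (2 * K) ≤ 1 / 2 :=
      div_le_div_of_nonneg_left (by norm_num) (by norm_num) (by linarith)
    linarith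
  have hit := iter (δ := δ) (x₀ := X / 2) (T := T) (m := 1 - 1 / (2 * K)) (X := X - T) hm0 hT0.le
    (δ0 _ (by linarith)) hstep n (by linarith)
  have h13 : δ X ≤ δ (X / 2 + n * T) := δa _ _
    (by have : 0 ≤ (n : ℝ) * T := by positivity
        linarith) (by linarith)
  have h14 : δ (X / 2) ≤ δ₁ := δa _ _ hs1 (by linarith)
  have hδ₁0 : 0 ≤ δ₁ := δ0 _ hs1
  have h15 : (1 - 1 / (2 * K)) ^ n ≤ Real.exp (-((p + 4) * L) + 1 / 2) := by
    have h16 : 1 - 1 / (2 * K) ≤ Real.exp (-(1 / (2 * K))) := by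
      have := Real.add_one_le_exp (-(1 / (2 * K)))
      linarith
    calc (1 - 1 / (2 * K)) ^ n ≤ Real.exp (-(1 / (2 * K))) ^ n := pow_le_pow_left₀ hm0 h16 n
      _ = Real.exp (-(n / (2 * K))) := by
        rw [← Real.exp_nat_mul]
        congr 1
        ring
      _ ≤ Real.exp (-((p + 4) * L) + 1 / 2) := by
        apply Real.exp_le_exp.2
        have h17 : X / (6 * K) ≤ X / (2 * T) :=
          div_le_div_of_nonneg_left hX0.le (by positivity) (by linarith)
        have h18 : X / (6 * K) - 1 ≤ n := by linarith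
        have h19 : (X / (6 * K) - 1) / (2 * K) ≤ n / (2 * K) :=
          div_le_div_of_nonneg_right h18 (by positivity)
        have h20 : (X / (6 * K) - 1) / (2 * K) = X / (12 * K ^ 2) - 1 / (2 * K) := by
          field_simp; ring
        have h21 : (p + 4) * L ≤ X / (12 * K ^ 2) := by
          rw [le_div_iff₀ (by positivity)]
          have e : (p + 4) * L * (12 * K ^ 2) = 12 * (p + 4) * L ^ 7 := by rw [hK]; ring
          rw [e]
          have h22 : 12 * (p + 4) * L ^ 7 ≤ 12 * (p + 4) * (1 / (12 * (p + 4)) * X) :=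
            mul_le_mul_of_nonneg_left hl7 (by positivity)
          have e2 : 12 * ((p : ℝ) + 4) * (1 / (12 * (p + 4)) * X) = X := by field_simp
          rwa [e2] at h22
        have h22 : 1 / (2 * K) ≤ 1 / 2 :=
          div_le_div_of_nonneg_left (by norm_num) (by norm_num) (by linarith)
        linarith
  have h23 : δ X ≤ Real.exp (-((p + 4) * L) + 1 / 2) * δ₁ := by
    calc δ X ≤ (1 - 1 / (2 * K)) ^ n * δ (X / 2) := h13.trans hit
      _ ≤ (1 - 1 / (2 * K)) ^ n * δ₁ := mul_le_mul_of_nonneg_left h14 (pow_nonneg hm0 n)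
      _ ≤ _ := mul_le_mul_of_nonneg_right h15 hδ₁0
  have h24 : Real.exp (-((p + 4) * L) + 1 / 2) ≤ 2 / X ^ (p + 4) := by
    rw [Real.exp_add, show -(((p : ℝ) + 4) * L) = -(((p + 4 : ℕ) : ℝ) * L) by push_cast; ring,
      Real.exp_neg, Real.exp_nat_mul, hL, Real.exp_log hX0]
    have h25 : Real.exp (1 / 2) ≤ 2 := by
      have h26 : Real.exp (1 / 2) ^ 2 = Real.exp 1 := by
        rw [← Real.exp_nat_mul]; congr 1; norm_num
      have h27 := Real.exp_one_lt_d9
      have h28 := Real.exp_pos (1 / 2)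
      nlinarith
    rw [mul_comm, ← div_eq_mul_inv]
    exact div_le_div_of_nonneg_right h25 (by positivity)
  have h29 : δ₁ ≤ |δ₁| := le_abs_self _
  have h30 : δ X * X ^ (p + 4) ≤ 2 * δ₁ := by
    have h31 := (h23.trans (mul_le_mul_of_nonneg_right h24 hδ₁0))
    have h32 := mul_le_mul_of_nonneg_right h31 (by positivity : 0 ≤ X ^ (p + 4))
    have e : 2 / X ^ (p + 4) * δ₁ * X ^ (p + 4) = 2 * δ₁ := by field_simp
    rwa [e] at h32
  have h33 : X ^ 2 ≤ δ X * X ^ (p + 4) := by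
    have h34 := mul_le_mul_of_nonneg_right hge (by positivity : 0 ≤ X ^ (p + 4))
    have e : 1 / X ^ (p + 2) * X ^ (p + 4) = X ^ 2 := by
      rw [show p + 4 = (p + 2) + 2 by ring, pow_add X (p + 2) 2]
      field_simp
    rwa [e] at h34
  nlinarith

/-- dyadic sum -/
theorem tail_le {Y : ℝ → ℝ} {b X₁ : ℝ} (p : ℕ) (hm : MonotoneOn Y (Ici X₁))
    (ht : Tendsto Y atTop (𝓝 b)) (h1 : 1 ≤ X₁)
    (h : ∀ X, X₁ ≤ X → Y (2 * X) ≤ Y X + 1 / X ^ (p + 1)) {X : ℝ} (hX : X₁ ≤ X) :
    b - Y X ≤ 2 / X ^ (p + 1) := by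
  have hX1 : 1 ≤ X := h1.trans hX
  have key : ∀ n : ℕ, Y (2 ^ n * X) ≤ Y X + (2 - 2 / 2 ^ n) / X ^ (p + 1) := by
    intro n
    induction n with
    | zero => simp
    | succ n ih =>
      have q : (1 : ℝ) ≤ 2 ^ n := one_le_pow₀ (by norm_num)
      have h2 := h (2 ^ n * X) (by nlinarith)
      have e : (2 : ℝ) ^ (n + 1) * X = 2 * (2 ^ n * X) := by ring
      rw [e]
      have h3 : 1 / (2 ^ n * X) ^ (p + 1) ≤ (1 / 2 ^ n) / X ^ (p + 1) := by
        rw [mul_pow, div_div]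
        apply div_le_div_of_nonneg_left (by norm_num) (by positivity)
        apply mul_le_mul_of_nonneg_right _ (by positivity)
        calc (2 : ℝ) ^ n = (2 ^ n) ^ 1 := (pow_one _).symm
          _ ≤ (2 ^ n) ^ (p + 1) := pow_le_pow_right₀ q (by omega)
      have h4 : (2 - 2 / (2 : ℝ) ^ (n + 1)) / X ^ (p + 1) =
          (2 - 2 / 2 ^ n) / X ^ (p + 1) + (1 / 2 ^ n) / X ^ (p + 1) := by
        rw [← add_div]
        congr 1
        rw [pow_succ]
        field_simp
        ring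
      rw [h4]
      linarith
  have h2 : Tendsto (fun n : ℕ => (2 : ℝ) ^ n * X) atTop atTop :=
    (tendsto_pow_atTop_atTop_of_one_lt (by norm_num)).atTop_mul_const (by linarith)
  have h3 : b ≤ Y X + 2 / X ^ (p + 1) := by
    refine le_of_tendsto (ht.comp h2) (Eventually.of_forall fun n => ?_)
    have h4 := key n
    have h5 : (2 - 2 / (2 : ℝ) ^ n) / X ^ (p + 1) ≤ 2 / X ^ (p + 1) := by
      apply div_le_div_of_nonneg_right _ (by positivity)
      have : (0 : ℝ) < 2 / 2 ^ n := by positivity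
      linarith
    simp only [Function.comp]
    linarith
  linarith

/-- **Row SelC** (selection for a bounded height function) -/
theorem selC {Y : ℝ → ℝ} {s₀ b : ℝ} (p : ℕ) (hY : ConcaveOn ℝ (Ici s₀) Y)
    (hm : MonotoneOn Y (Ici s₀)) (ht : Tendsto Y atTop (𝓝 b)) :
    (∀ S : ℝ, HasWin Y s₀ p S) ∨ ∀ᶠ X : ℝ in atTop, b - Y X ≤ 2 / X ^ (p + 1) := by
  by_cases hall : ∀ S : ℝ, HasWin Y s₀ p S
  · exact Or.inl hall
  right
  push Not at hall
  obtain ⟨S, hS⟩ := hall
  obtain ⟨X₀, hX₀⟩ := eventually_atTop.1 (small_of_noWin p hY hm hS)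
  set X₁ := max (max X₀ 1) (s₀ + 1) with hX₁
  have a1 : X₀ ≤ X₁ := (le_max_left _ _).trans (le_max_left _ _)
  have a2 : 1 ≤ X₁ := (le_max_right _ _).trans (le_max_left _ _)
  have a3 : s₀ + 1 ≤ X₁ := le_max_right _ _
  refine eventually_atTop.2 ⟨X₁, fun X hX => tail_le (X₁ := X₁) p
    (hm.mono (Ici_subset_Ici.2 (by linarith))) ht a2 (fun X hX => ?_) hX⟩
  have h1 : X₀ ≤ X := a1.trans hX
  have h2 : 1 ≤ X := a2.trans hX
  have h3 : s₀ + 1 ≤ X := a3.trans hX
  have h4 := hX₀ X h1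
  have h5 := slopes hY (a := X - 1) (b := X) (c := X) (d := 2 * X) (by linarith) (by linarith)
    le_rfl (by linarith)
  have e1 : X - (X - 1) = 1 := by ring
  have e2 : 2 * X - X = X := by ring
  rw [e1, e2, div_one, div_le_iff₀ (by linarith)] at h5
  have h6 : (Y X - Y (X - 1)) * X ≤ 1 / X ^ (p + 2) * X := mul_le_mul_of_nonneg_right h4.le (by linarith)
  have e3 : 1 / X ^ (p + 2) * X = 1 / X ^ (p + 1) := by
    have : X ≠ 0 := by linarith
    rw [show p + 2 = (p + 1) + 1 by ring, pow_succ]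
    field_simp
  rw [e3] at h6
  linarith

end Vale.Agent.P097.H557.DE
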