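import Vale.Agent.P097.H690.LD.LogDer

/-! P097, case [c], row (DE), parts (2a) and (2b): `g` holomorphic, 1-periodic on the strip
`|Im z| < b`, positive on the real axis, `g'' = Q g` with `Q` holomorphic on the strip.
Port of `H967/D2.lean` (entire functions). -/

set_option linter.all false

namespace Vale.Agent.P097.H557.DE

open Complex Metric Set Filter MeasureTheory Topology

/-- the strip `|Im z| < b` -/
def St (b : ℝ) : Set ℂ := {z : ℂ | |z.im| < b}

theorem isOpen_St (b : ℝ) : IsOpen (St b) := isOpen_lt (by fun_prop) continuous_const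

theorem St_mem_nhds {b : ℝ} {z : ℂ} (hz : z ∈ St b) : St b ∈ 𝓝 z := (isOpen_St b).mem_nhds hz

theorem re_mem_St {b : ℝ} (hb : 0 < b) (x : ℝ) : (x : ℂ) ∈ St b := by simp [St, hb]

theorem line_mem_St {b y : ℝ} (hy : |y| < b) (x : ℝ) : (x + y * I : ℂ) ∈ St b := by
  simpa [St] using hy

theorem DifferentiableOn.dAt {b : ℝ} {f : ℂ → ℂ} (hf : DifferentiableOn ℂ f (St b)) {z : ℂ}
    (hz : z ∈ St b) : DifferentiableAt ℂ f z := (hf z hz).differentiableAt (St_mem_nhds hz)

theorem dOn_deriv {b : ℝ} {f : ℂ → ℂ} (hf : DifferentiableOn ℂ f (St b)) :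
    DifferentiableOn ℂ (deriv f) (St b) := hf.deriv (isOpen_St b)

/-- contour shift for 1-periodic functions on a strip -/
theorem shift {b : ℝ} {f : ℂ → ℂ} (hf : DifferentiableOn ℂ f (St b))
    (hp : ∀ z ∈ St b, f (z + 1) = f z) {y : ℝ} (hy : |y| < b) :
    ∫ x in (0 : ℝ)..1, f (x + y * I) = ∫ x in (0 : ℝ)..1, f x := by
  have hb : 0 < b := (abs_nonneg y).trans_lt hy
  have hrect : (Set.uIcc (0 : ℂ).re (1 + y * I : ℂ).re ×ℂ Set.uIcc (0 : ℂ).im (1 + y * I : ℂ).im) ⊆ St b := by
    intro z hz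
    have h1 : z.im ∈ Set.uIcc (0 : ℂ).im (1 + y * I : ℂ).im := hz.2
    have e : (1 + y * I : ℂ).im = y := by simp
    rw [e, zero_im] at h1
    have h2 : |z.im| ≤ |y| := by
      rcases le_total 0 y with h | h
      · rw [uIcc_of_le h] at h1
        rw [abs_of_nonneg h1.1, abs_of_nonneg h]; exact h1.2
      · rw [uIcc_of_ge h] at h1
        rw [abs_of_nonpos h1.2, abs_of_nonpos h]; linarith [h1.1]
    exact h2.trans_lt hy
  have h := Complex.integral_boundary_rect_eq_zero_of_differentiableOn f 0 (1 + y * I)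
    (hf.mono hrect)
  have hmem : ∀ t : ℝ, t ∈ Set.uIcc (0 : ℝ) y → ((t : ℂ) * I) ∈ St b := by
    intro t ht
    have h2 : |t| ≤ |y| := by
      rcases le_total 0 y with h | h
      · rw [uIcc_of_le h] at ht
        rw [abs_of_nonneg ht.1, abs_of_nonneg h]; exact ht.2
      · rw [uIcc_of_ge h] at ht
        rw [abs_of_nonpos ht.2, abs_of_nonpos h]; linarith [ht.1]
    show |((t : ℂ) * I).im| < b
    have : ((t : ℂ) * I).im = t := by simp
    rw [this]; exact h2.trans_lt hy
  have e2 : (∫ t in (0 : ℂ).im..(1 + y * I : ℂ).im, f (((1 + y * I : ℂ).re : ℂ) + t * I)) =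
      ∫ t in (0 : ℂ).im..(1 + y * I : ℂ).im, f ((((0 : ℂ).re : ℝ) : ℂ) + t * I) := by
    apply intervalIntegral.integral_congr
    intro t ht
    have e : (1 + y * I : ℂ).im = y := by simp
    rw [e, zero_im] at ht
    have := hp (t * I) (hmem t ht)
    simp only [add_re, one_re, mul_re, ofReal_re, I_re, mul_zero, ofReal_im, I_im, mul_one,
      sub_self, add_zero, ofReal_one, zero_re, ofReal_zero, zero_add]
    rw [← this]; ring_nf
  rw [e2, add_sub_cancel_right] at h
  simp at h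
  have h2 := sub_eq_zero.1 h
  simpa using h2.symm

section
variable {b : ℝ} {g : ℂ → ℂ} {l : ℝ}

/-- some point of every horizontal line has large product of translates -/
theorem exists_prod (hg : DifferentiableOn ℂ g (St b)) (hp : ∀ z ∈ St b, g (z + 1) = g z)
    (hr : ∀ x : ℝ, (g x).im = 0 ∧ Real.exp (-l) ≤ (g x).re) (N : ℕ) {y : ℝ} (hy : |y| < b) :
    ∃ x ∈ Icc (0 : ℝ) 1, Real.exp (-l * N) ≤
      ∏ k ∈ Finset.range N, ‖g (x + y * I + (k : ℂ) / N)‖ := by
  have hb : 0 < b := (abs_nonneg y).trans_lt hy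
  have hsh0 : ∀ (k : ℕ) (z : ℂ), (z + (k : ℂ) / N).im = z.im := by
    intro k z
    have : ((k : ℂ) / N) = (((k : ℝ) / N : ℝ) : ℂ) := by push_cast; ring
    rw [this, add_im, ofReal_im, add_zero]
  set P : ℂ → ℂ := fun z => ∏ k ∈ Finset.range N, g (z + (k : ℂ) / N) with hP
  have hPd : DifferentiableOn ℂ P (St b) := by
    have : ∀ k ∈ Finset.range N, DifferentiableOn ℂ (fun z => g (z + (k : ℂ) / N)) (St b) :=
      fun k _ => hg.comp (by fun_prop) fun z hz => by
        show |(z + (k : ℂ) / N).im| < b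
        rw [hsh0]; exact hz
    exact DifferentiableOn.fun_finset_prod this
  have hPp : ∀ z ∈ St b, P (z + 1) = P z := by
    intro z hz
    simp only [hP]
    refine Finset.prod_congr rfl fun k _ => ?_
    rw [← hp (z + (k : ℂ) / N) (by show |(z + (k : ℂ) / N).im| < b; rw [hsh0]; exact hz)]
    ring_nf
  set p : ℝ → ℝ := fun x => ∏ k ∈ Finset.range N, (g ((x + (k : ℝ) / N : ℝ) : ℂ)).re with hpd
  have hPx : ∀ x : ℝ, P x = ((p x : ℝ) : ℂ) := by
    intro x
    simp only [hP, hpd]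
    rw [Complex.ofReal_prod]
    refine Finset.prod_congr rfl fun k _ => ?_
    have h1 := (hr (x + (k : ℝ) / N)).1
    apply Complex.ext
    · simp
    · simpa using h1
  have hpl : ∀ x : ℝ, Real.exp (-l * N) ≤ p x := by
    intro x
    have : Real.exp (-l * N) = ∏ k ∈ Finset.range N, Real.exp (-l) := by
      rw [Finset.prod_const, Finset.card_range, ← Real.exp_nat_mul]; ring_nf
    rw [this]
    exact Finset.prod_le_prod (fun _ _ => (Real.exp_pos _).le) fun k _ => (hr _).2
  have hsh := shift hPd hPp hy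
  have hpc : Continuous p := by
    have h1 : Continuous fun x : ℝ => (P x).re := by
      have h2 : Continuous fun x : ℝ => P x :=
        hPd.continuousOn.comp_continuous continuous_ofReal fun x => re_mem_St hb x
      exact continuous_re.comp h2
    have h2 : (fun x : ℝ => (P x).re) = p := by
      funext x; rw [hPx]; simp
    rwa [h2] at h1
  have hlow : Real.exp (-l * N) ≤ ‖∫ x in (0 : ℝ)..1, P (x + y * I)‖ := by
    rw [hsh]
    have e : ∫ x in (0 : ℝ)..1, P x = ((∫ x in (0 : ℝ)..1, p x : ℝ) : ℂ) := by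
      rw [← intervalIntegral.integral_ofReal]
      exact intervalIntegral.integral_congr fun x _ => hPx x
    rw [e, Complex.norm_real, Real.norm_eq_abs]
    refine le_trans ?_ (le_abs_self _)
    have h1 : ∫ _ in (0 : ℝ)..1, Real.exp (-l * N) ≤ ∫ x in (0 : ℝ)..1, p x :=
      intervalIntegral.integral_mono_on (by norm_num) (by simp) (hpc.intervalIntegrable _ _)
        fun x _ => hpl x
    simpa using h1
  have hcont : Continuous fun x : ℝ => ‖P (x + y * I)‖ := by
    have h2 : Continuous fun x : ℝ => P (x + y * I) :=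
      hPd.continuousOn.comp_continuous (by fun_prop) fun x => line_mem_St hy x
    exact h2.norm
  obtain ⟨x, hx, hmax⟩ := isCompact_Icc.exists_isMaxOn (nonempty_Icc.2 zero_le_one)
    hcont.continuousOn
  refine ⟨x, hx, ?_⟩
  have h2 : ‖∫ x in (0 : ℝ)..1, P (x + y * I)‖ ≤ ‖P (x + y * I)‖ * |1 - 0| := by
    refine intervalIntegral.norm_integral_le_of_norm_le_const fun t ht => ?_
    rw [uIoc_of_le zero_le_one] at ht
    exact hmax ⟨ht.1.le, ht.2⟩
  have h3 : ‖P (x + y * I)‖ = ∏ k ∈ Finset.range N, ‖g (x + y * I + (k : ℂ) / N)‖ := by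
    simp only [hP]; rw [norm_prod]
  rw [← h3]
  refine hlow.trans (h2.trans (le_of_eq ?_))
  simp

theorem per_nat (hp : ∀ z ∈ St b, g (z + 1) = g z) (n : ℕ) : ∀ z ∈ St b, g (z + n) = g z := by
  induction n with
  | zero => intro z _; simp
  | succ n ih =>
    intro z hz
    have h1 : z + n ∈ St b := by
      show |(z + n).im| < b
      have hz' : |z.im| < b := hz
      simpa using hz'
    have := hp (z + n) h1
    rw [← ih z hz, ← this]
    push_cast; ring_nf

theorem per_int (hp : ∀ z ∈ St b, g (z + 1) = g z) (n : ℤ) {z : ℂ} (hz : z ∈ St b) :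
    g (z + n) = g z := by
  obtain ⟨m, rfl | rfl⟩ := n.eq_nat_or_neg
  · simpa using per_nat hp m z hz
  · have h1 : z + ((-(m : ℤ) : ℤ) : ℂ) ∈ St b := by
      show |(z + ((-(m : ℤ) : ℤ) : ℂ)).im| < b
      have hz' : |z.im| < b := hz
      simpa using hz'
    have := per_nat hp m _ h1
    rw [← this]
    congr 1
    push_cast; ring

/-- every short interval of every horizontal line contains a point where `g` is not too small -/
theorem exists_low (hg : DifferentiableOn ℂ g (St b)) (hp : ∀ z ∈ St b, g (z + 1) = g z)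
    (hr : ∀ x : ℝ, (g x).im = 0 ∧ Real.exp (-l) ≤ (g x).re) {A y : ℝ} (hA : 0 ≤ A) (hy : |y| < b)
    (hB : ∀ x : ℝ, ‖g (x + y * I)‖ ≤ Real.exp A) {N : ℕ} (hN : 0 < N) (x₀ : ℝ) :
    ∃ x : ℝ, x₀ ≤ x ∧ x ≤ x₀ + 1 / N ∧ Real.exp (-((A + l) * N)) ≤ ‖g (x + y * I)‖ := by
  by_contra hno
  push Not at hno
  obtain ⟨x, -, hx⟩ := exists_prod hg hp hr N hy
  have hN' : (0 : ℝ) < N := by exact_mod_cast hN
  set j : ℤ := ⌈(N : ℝ) * (x₀ - x)⌉ with hj
  have hNz : (N : ℤ) ≠ 0 := by exact_mod_cast hN.ne'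
  set k : ℕ := (j % N).toNat with hk
  have hk1 : ((k : ℕ) : ℤ) = j % N := Int.toNat_of_nonneg (Int.emod_nonneg _ hNz)
  have hk2 : k < N := by
    have := Int.emod_lt_of_pos j (by exact_mod_cast hN : (0 : ℤ) < N)
    omega
  have hjk : j = k + N * (j / N) := by
    rw [hk1]; exact (Int.emod_add_mul_ediv j N).symm
  have hjR : (j : ℝ) = k + N * ((j / N : ℤ) : ℝ) := by exact_mod_cast congrArg (Int.cast (R := ℝ)) hjk
  set t : ℝ := x + j / N with ht
  have ht1 : x₀ ≤ t := by
    have h1 := Int.le_ceil ((N : ℝ) * (x₀ - x))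
    rw [← hj] at h1
    rw [ht]
    have : x₀ - x ≤ j / N := by rw [le_div_iff₀ hN']; linarith
    linarith
  have ht2 : t ≤ x₀ + 1 / N := by
    have h1 := (Int.ceil_lt_add_one ((N : ℝ) * (x₀ - x))).le
    rw [← hj] at h1
    rw [ht]
    have : j / N ≤ x₀ - x + 1 / N := by
      rw [div_le_iff₀ hN', add_mul]; field_simp; linarith
    linarith
  have hkim : (x + y * I + (k : ℂ) / N : ℂ) ∈ St b := by
    show |(x + y * I + (k : ℂ) / N : ℂ).im| < b
    have : ((k : ℂ) / N) = (((k : ℝ) / N : ℝ) : ℂ) := by push_cast; ring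
    rw [this, add_im, ofReal_im, add_zero]
    simpa using hy
  have hgk : g (x + y * I + (k : ℂ) / N) = g (t + y * I) := by
    have e : ((t : ℝ) : ℂ) + y * I = (x + y * I + (k : ℂ) / N) + ((j / N : ℤ) : ℂ) := by
      rw [ht]
      push_cast
      have hNc : (N : ℂ) ≠ 0 := by exact_mod_cast hN.ne'
      have hjC : (j : ℂ) = k + N * ((j / N : ℤ) : ℂ) := by exact_mod_cast congrArg (Int.cast (R := ℂ)) hjk
      rw [hjC]; field_simp; ring
    rw [e, per_int hp _ hkim]
  have hlt := hno t ht1 ht2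
  rw [← hgk] at hlt
  have hkm : k ∈ Finset.range N := Finset.mem_range.2 hk2
  rw [← Finset.mul_prod_erase _ _ hkm] at hx
  have hrest : ∏ i ∈ (Finset.range N).erase k, ‖g (x + y * I + (i : ℂ) / N)‖ ≤
      Real.exp (A * N) * Real.exp (-A) := by
    have h1 : ∏ i ∈ (Finset.range N).erase k, ‖g (x + y * I + (i : ℂ) / N)‖ ≤
        ∏ i ∈ (Finset.range N).erase k, Real.exp A := by
      refine Finset.prod_le_prod (fun _ _ => norm_nonneg _) fun i _ => ?_
      have := hB (x + i / N)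
      refine le_trans (le_of_eq ?_) this
      congr 2
      push_cast; ring
    refine h1.trans (le_of_eq ?_)
    rw [Finset.prod_const, Finset.card_erase_of_mem hkm, Finset.card_range, ← Real.exp_nat_mul,
      ← Real.exp_add]
    congr 1
    rw [Nat.cast_sub hN]; push_cast; ring
  have h5 : ‖g (x + y * I + (k : ℂ) / N)‖ *
      ∏ i ∈ (Finset.range N).erase k, ‖g (x + y * I + (i : ℂ) / N)‖ ≤
      ‖g (x + y * I + (k : ℂ) / N)‖ * (Real.exp (A * N) * Real.exp (-A)) := by gcongr
  have h6 : ‖g (x + y * I + (k : ℂ) / N)‖ * (Real.exp (A * N) * Real.exp (-A)) <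
      Real.exp (-((A + l) * N)) * (Real.exp (A * N) * Real.exp (-A)) := by
    have : 0 < Real.exp (A * N) * Real.exp (-A) := by positivity
    gcongr
  have h7 : Real.exp (-((A + l) * N)) * (Real.exp (A * N) * Real.exp (-A)) ≤ Real.exp (-l * N) := by
    rw [← Real.exp_add, ← Real.exp_add]
    apply Real.exp_le_exp.2
    linarith
  linarith

/-- (2a): bound of `Q` in a strip -/
theorem Q_bound {Q : ℂ → ℂ} (hg : DifferentiableOn ℂ g (St b)) (hQ : DifferentiableOn ℂ Q (St b))
    (hgQ : ∀ z ∈ St b, deriv (deriv g) z = Q z * g z) (hp : ∀ z ∈ St b, g (z + 1) = g z)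
    (hr : ∀ x : ℝ, (g x).im = 0 ∧ Real.exp (-l) ≤ (g x).re) (hl : 0 ≤ l) {A Y R : ℝ} (hA : 0 ≤ A)
    (hYb : Y < b) (hR : 0 < R) (hR1 : R ≤ 1) (hB : ∀ z : ℂ, |z.im| ≤ Y → ‖g z‖ ≤ Real.exp A)
    {z : ℂ} (hz : |z.im| ≤ Y - R) : ‖Q z‖ ≤ 3 * 10 ^ 10 * (A + l + 1) ^ 4 / R ^ 6 := by
  set N : ℕ := ⌈16 / R⌉₊ with hN
  have hN1 : 16 / R ≤ (N : ℝ) := Nat.le_ceil _
  have hN2 : (N : ℝ) < 16 / R + 1 := Nat.ceil_lt_add_one (by positivity)
  have hNpos : (0 : ℝ) < N := lt_of_lt_of_le (by positivity) hN1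
  have hN0 : 0 < N := by exact_mod_cast hNpos
  have hNR : 1 / (N : ℝ) ≤ R / 16 := by
    rw [div_le_div_iff₀ hNpos (by norm_num)]
    rw [div_le_iff₀ hR] at hN1
    linarith
  have hN3 : (N : ℝ) + 1 ≤ 18 / R := by
    have : 1 ≤ 1 / R := by rw [le_div_iff₀ hR]; linarith
    have e : 18 / R = 16 / R + 1 / R + 1 / R := by ring
    linarith
  obtain ⟨x, hx1, hx2, hx3⟩ := exists_low hg hp hr hA (y := z.im) (by linarith)
    (fun x => hB _ (by simp; linarith)) hN0 z.re
  set c : ℂ := x + z.im * I with hc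
  have hcim : c.im = z.im := by simp [hc]
  have hgc : 0 < ‖g c‖ := lt_of_lt_of_le (Real.exp_pos _) hx3
  have hgc0 : g c ≠ 0 := norm_pos_iff.1 hgc
  have hball : ball c R ⊆ St b := by
    intro w hw
    rw [mem_ball, dist_eq_norm] at hw
    have h2 : |w.im - c.im| ≤ ‖w - c‖ := by simpa using Complex.abs_im_le_norm (w - c)
    rw [hcim] at h2
    have h3 : |w.im| ≤ |w.im - z.im| + |z.im| := by simpa using abs_add_le (w.im - z.im) z.im
    show |w.im| < b
    linarith
  set f : ℂ → ℂ := fun w => (g c)⁻¹ * g w with hf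
  have hd1 : EqOn (deriv f) (fun w => (g c)⁻¹ * deriv g w) (St b) := by
    intro w hw
    simp only [hf]
    rw [deriv_const_mul _ (DifferentiableOn.dAt hg hw)]
  have hd2 : ∀ w ∈ St b, deriv (deriv f) w = (g c)⁻¹ * deriv (deriv g) w := by
    intro w hw
    rw [(hd1.eventuallyEq_of_mem (St_mem_nhds hw)).deriv_eq, deriv_const_mul]
    exact DifferentiableOn.dAt (dOn_deriv hg) hw
  set D : ℝ := A + (A + l) * N with hDdef
  have hD0 : 0 ≤ D := by positivity
  have key := H690.LD.logder_quot (f := f) (F := Q) (c := c) (β := 0) (R := R) (D := D) hR hD0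
    (((hg.mono hball).const_mul _)) (hQ.mono hball) (by
      intro w hw
      rw [mem_ball, dist_eq_norm] at hw
      have h1 : |w.im| ≤ Y := by
        have h2 : |w.im - c.im| ≤ ‖w - c‖ := by simpa using Complex.abs_im_le_norm (w - c)
        rw [hcim] at h2
        have h3 : |w.im| ≤ |w.im - z.im| + |z.im| := by simpa using abs_add_le (w.im - z.im) z.im
        linarith
      simp only [hf, norm_mul, norm_inv]
      have h4 : ‖g c‖⁻¹ ≤ Real.exp ((A + l) * N) := by
        rw [inv_le_comm₀ hgc (Real.exp_pos _), ← Real.exp_neg]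
        exact hx3
      calc ‖g c‖⁻¹ * ‖g w‖ ≤ Real.exp ((A + l) * N) * Real.exp A := by
            gcongr; exact hB w h1
        _ = Real.exp D := by rw [← Real.exp_add, hDdef]; ring_nf)
    (by simp [hf, hgc0]) (by
      intro w hw
      rw [hd2 w (hball hw), hgQ w (hball hw)]; simp only [hf]; ring) z (by
      rw [mem_closedBall, dist_eq_norm]
      have e : z - c = ((z.re - x : ℝ) : ℂ) := by
        apply Complex.ext <;> simp [hc]
      rw [e, Complex.norm_real, Real.norm_eq_abs, abs_le]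
      constructor <;> linarith)
  refine key.trans ?_
  simp only [norm_zero, zero_mul, add_zero]
  have h1 : D + 1 ≤ (A + l + 1) * (18 / R) := by
    have h2 : D + 1 ≤ (A + l + 1) * ((N : ℝ) + 1) := by rw [hDdef]; nlinarith
    refine h2.trans ?_
    have : 0 ≤ A + l + 1 := by linarith
    gcongr
  have h3 : (D + 1) ^ 4 ≤ ((A + l + 1) * (18 / R)) ^ 4 := by
    have : 0 ≤ D + 1 := by linarith
    gcongr
  calc 200000 * (D + 1) ^ 4 / R ^ 2 ≤ 200000 * ((A + l + 1) * (18 / R)) ^ 4 / R ^ 2 := by gcongr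
    _ = 20995200000 * (A + l + 1) ^ 4 / R ^ 6 := by field_simp; ring
    _ ≤ 3 * 10 ^ 10 * (A + l + 1) ^ 4 / R ^ 6 := by
      have : 0 ≤ (A + l + 1) ^ 4 := by positivity
      gcongr
      norm_num

/-- the mean of `Q = g'' / g` over the real period is nonnegative -/
theorem mean_nonneg {Q : ℂ → ℂ} (hb : 0 < b) (hg : DifferentiableOn ℂ g (St b))
    (hQ : DifferentiableOn ℂ Q (St b))
    (hgQ : ∀ z ∈ St b, deriv (deriv g) z = Q z * g z) (hp : ∀ z ∈ St b, g (z + 1) = g z)
    (hr : ∀ x : ℝ, (g x).im = 0 ∧ Real.exp (-l) ≤ (g x).re) :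
    0 ≤ (∫ x in (0 : ℝ)..1, Q x).re := by
  have hre : ∀ x : ℝ, (x : ℂ) ∈ St b := fun x => re_mem_St hb x
  have hne : ∀ x : ℝ, g x ≠ 0 := by
    intro x h
    have := (hr x).2
    rw [h, zero_re] at this
    exact absurd this (not_le.2 (Real.exp_pos _))
  have hpd : ∀ z ∈ St b, deriv g (z + 1) = deriv g z := by
    intro z hz
    have h1 : (fun w => g (w + 1)) =ᶠ[𝓝 z] g := by
      filter_upwards [St_mem_nhds hz] with w hw using hp w hw
    rw [← deriv_comp_add_const, h1.deriv_eq]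
  set ψ : ℝ → ℂ := fun x => deriv g x / g x with hψ
  have hdψ : ∀ x : ℝ, HasDerivAt ψ (Q x - ψ x ^ 2) x := by
    intro x
    have h1 := ((DifferentiableOn.dAt (dOn_deriv hg) (hre x)).hasDerivAt.div
      (DifferentiableOn.dAt hg (hre x)).hasDerivAt (hne x)).comp_ofReal
    refine h1.congr_deriv ?_
    rw [hgQ x (hre x)]
    have := hne x
    simp only [hψ]
    field_simp
  have hcQ : Continuous fun x : ℝ => Q x := hQ.continuousOn.comp_continuous continuous_ofReal hre
  have hcψ : Continuous ψ := by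
    have h1 : Continuous fun x : ℝ => g x := hg.continuousOn.comp_continuous continuous_ofReal hre
    have h2 : Continuous fun x : ℝ => deriv g x :=
      (dOn_deriv hg).continuousOn.comp_continuous continuous_ofReal hre
    exact Continuous.div h2 h1 hne
  have h0 : ∫ x in (0 : ℝ)..1, (Q x - ψ x ^ 2) = ψ 1 - ψ 0 :=
    intervalIntegral.integral_eq_sub_of_hasDerivAt (fun x _ => hdψ x)
      ((hcQ.sub (hcψ.pow 2)).intervalIntegrable _ _)
  have h1 : ψ 1 - ψ 0 = 0 := by
    have h00 : (0 : ℂ) ∈ St b := by simpa using hre 0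
    simp only [hψ, ofReal_one, ofReal_zero]
    rw [← zero_add (1 : ℂ), hp 0 h00, hpd 0 h00, sub_self]
  have hi2 : IntervalIntegrable (fun x => ψ x ^ 2) volume 0 1 :=
    (hcψ.pow 2).intervalIntegrable _ _
  rw [h1, intervalIntegral.integral_sub (hcQ.intervalIntegrable _ _) hi2, sub_eq_zero] at h0
  -- ψ is real
  have himg : ∀ x : ℝ, (deriv g x).im = 0 := by
    intro x
    have h2 : HasDerivAt (fun y : ℝ => g y) (deriv g x) x :=
      (DifferentiableOn.dAt hg (hre x)).hasDerivAt.comp_ofReal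
    have h3 := Complex.imCLM.hasFDerivAt.comp_hasDerivAt x h2
    have h4 : (⇑imCLM ∘ fun y : ℝ => g y) = fun _ => (0 : ℝ) := by
      funext y; simp [(hr y).1]
    rw [h4] at h3
    have h5 := h3.unique (hasDerivAt_const x (0 : ℝ))
    simpa using h5
  have hψr : ∀ x : ℝ, ψ x = ((((deriv g x).re / (g x).re) : ℝ) : ℂ) := by
    intro x
    have e1 : deriv g x = (((deriv g x).re : ℝ) : ℂ) := Complex.ext (by simp) (by simp [himg x])
    have e2 : g x = (((g x).re : ℝ) : ℂ) := Complex.ext (by simp) (by simp [(hr x).1])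
    simp only [hψ]
    rw [Complex.ofReal_div, ← e1, ← e2]
  have h6 : ∫ x in (0 : ℝ)..1, ψ x ^ 2 =
      ((∫ x in (0 : ℝ)..1, ((deriv g x).re / (g x).re) ^ 2 : ℝ) : ℂ) := by
    rw [← intervalIntegral.integral_ofReal]
    refine intervalIntegral.integral_congr fun x _ => ?_
    simp only [hψr x]
    push_cast
    ring
  rw [h0, h6, Complex.ofReal_re]
  exact intervalIntegral.integral_nonneg zero_le_one fun x _ => sq_nonneg _

/-- (2b), one centre: if `g` is not small somewhere in the box, `D² Q + 1` is small -/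
theorem Q_near {Q : ℂ → ℂ} (hg : DifferentiableOn ℂ g (St b)) (hQ : DifferentiableOn ℂ Q (St b))
    (hgQ : ∀ z ∈ St b, deriv (deriv g) z = Q z * g z) {y D r B ε K K₁ : ℝ} (hD : 0 < D)
    (hr0 : 0 < r) (hy : |y| + K * D < b)
    (hε : 0 < ε) (hεB : ε ≤ B) (hK₁ : 0 ≤ K₁) (hK : 0 < K) (hKK : 17 * K₁ ≤ K)
    (hB : ∀ z : ℂ, |z.im - y| ≤ K * D → ‖g z‖ ≤ B / r * Real.exp ((z.im - y) / D))
    {x₀ : ℝ} {s : ℂ} (hs : ‖s - (x₀ + y * I)‖ ≤ K₁ * D) (hgs : ε ≤ ‖g s‖ * r) :
    ‖(D : ℂ) ^ 2 * Q (x₀ + y * I) + 1‖ ≤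
      200000 * (Real.log (B / ε) + K₁ + 1) ^ 4 / (K - K₁) ^ 2 +
        600 * (Real.log (B / ε) + K₁ + 1) ^ 2 / (K - K₁) := by
  have hB0 : 0 < B := hε.trans_le hεB
  have hgs0 : 0 < ‖g s‖ := by
    by_contra h
    have h1 : ‖g s‖ ≤ 0 := not_lt.1 h
    nlinarith
  have hgs1 : g s ≠ 0 := norm_pos_iff.1 hgs0
  have hDc : (D : ℂ) ≠ 0 := by exact_mod_cast hD.ne'
  have hR : 0 < K - K₁ := by linarith
  set M : ℝ := Real.log (B / ε) + K₁ with hM
  have hM0 : 0 ≤ M := by
    have : 0 ≤ Real.log (B / ε) := Real.log_nonneg (by rwa [one_le_div hε])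
    linarith
  have hsi : |s.im - y| ≤ K₁ * D := by
    have := Complex.abs_im_le_norm (s - (x₀ + y * I))
    have e : (s - (x₀ + y * I)).im = s.im - y := by simp
    rw [e] at this
    exact this.trans hs
  have hclose : ∀ T ∈ ball (0 : ℂ) (K - K₁), |(s + D * T).im - y| ≤ K * D := by
    intro T hT
    rw [mem_ball, dist_zero_right] at hT
    have hTi : |T.im| ≤ ‖T‖ := Complex.abs_im_le_norm T
    have him : (s + D * T).im - y = (s.im - y) + D * T.im := by simp; ring
    rw [him]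
    refine (abs_add_le _ _).trans ?_
    rw [abs_mul, abs_of_pos hD]
    nlinarith
  have hin : ∀ T ∈ ball (0 : ℂ) (K - K₁), s + D * T ∈ St b := by
    intro T hT
    have h1 := hclose T hT
    show |(s + D * T).im| < b
    have h2 : |(s + D * T).im| ≤ |(s + D * T).im - y| + |y| := by
      simpa using abs_add_le ((s + D * T).im - y) y
    linarith
  set f : ℂ → ℂ := fun T => (g s)⁻¹ * (g (s + D * T) * Complex.exp (I * T)) with hf
  have hgd : ∀ T ∈ ball (0 : ℂ) (K - K₁),
      HasDerivAt (fun T => g (s + D * T)) (deriv g (s + D * T) * D) T := by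
    intro T hT
    have h1 : HasDerivAt (fun T : ℂ => s + D * T) (D : ℂ) T := by
      simpa using ((hasDerivAt_id T).const_mul (D : ℂ)).const_add s
    exact (DifferentiableOn.dAt hg (hin T hT)).hasDerivAt.comp T h1
  have hgd2 : ∀ T ∈ ball (0 : ℂ) (K - K₁), HasDerivAt (fun T => deriv g (s + D * T))
      (deriv (deriv g) (s + D * T) * D) T := by
    intro T hT
    have h1 : HasDerivAt (fun T : ℂ => s + D * T) (D : ℂ) T := by
      simpa using ((hasDerivAt_id T).const_mul (D : ℂ)).const_add s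
    exact (DifferentiableOn.dAt (dOn_deriv hg) (hin T hT)).hasDerivAt.comp T h1
  have hed : ∀ T : ℂ, HasDerivAt (fun T : ℂ => Complex.exp (I * T)) (Complex.exp (I * T) * I) T := by
    intro T
    have h1 : HasDerivAt (fun T : ℂ => I * T) I T := by
      simpa using (hasDerivAt_id T).const_mul I
    exact h1.cexp
  have hfd : ∀ T ∈ ball (0 : ℂ) (K - K₁), HasDerivAt f ((g s)⁻¹ * ((deriv g (s + D * T) * D) *
      Complex.exp (I * T) + g (s + D * T) * (Complex.exp (I * T) * I))) T := fun T hT =>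
    ((hgd T hT).mul (hed T)).const_mul _
  have hf1 : ∀ T ∈ ball (0 : ℂ) (K - K₁), deriv f T = (g s)⁻¹ * ((deriv g (s + D * T) * D) *
      Complex.exp (I * T) + g (s + D * T) * (Complex.exp (I * T) * I)) :=
    fun T hT => (hfd T hT).deriv
  have hf2 : ∀ T ∈ ball (0 : ℂ) (K - K₁), deriv (deriv f) T =
      (g s)⁻¹ * ((deriv (deriv g) (s + D * T) * D * D) *
      Complex.exp (I * T) + deriv g (s + D * T) * D * (Complex.exp (I * T) * I) +
      (deriv g (s + D * T) * D * (Complex.exp (I * T) * I) +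
        g (s + D * T) * (Complex.exp (I * T) * I * I))) := by
    intro T hT
    have he : deriv f =ᶠ[𝓝 T] fun T => (g s)⁻¹ * ((deriv g (s + D * T) * D) *
        Complex.exp (I * T) + g (s + D * T) * (Complex.exp (I * T) * I)) := by
      filter_upwards [isOpen_ball.mem_nhds hT] with T' hT' using hf1 T' hT'
    rw [he.deriv_eq]
    exact (((((hgd2 T hT).mul_const (D : ℂ)).mul (hed T)).add
      ((hgd T hT).mul ((hed T).mul_const I))).const_mul _).deriv
  have hfdiff : DifferentiableOn ℂ f (ball 0 (K - K₁)) := fun T hT =>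
    (hfd T hT).differentiableAt.differentiableWithinAt
  set F : ℂ → ℂ := fun T => (D : ℂ) ^ 2 * Q (s + D * T) + 1 with hF
  have hFdiff : DifferentiableOn ℂ F (ball 0 (K - K₁)) := by
    have : DifferentiableOn ℂ (fun T : ℂ => Q (s + D * T)) (ball 0 (K - K₁)) :=
      hQ.comp (by fun_prop) hin
    exact ((this.const_mul _).add_const _)
  set T₁ : ℂ := (x₀ + y * I - s) / D with hT₁
  have hT₁n : ‖T₁‖ ≤ (K - K₁) / 16 := by
    rw [hT₁, norm_div, Complex.norm_real, Real.norm_eq_abs, abs_of_pos hD, div_le_iff₀ hD,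
      norm_sub_rev]
    refine hs.trans ?_
    have : K₁ ≤ (K - K₁) / 16 := by linarith
    gcongr
  have key := H690.LD.logder_quot (f := f) (F := F) (c := 0) (β := -(2 * I)) (R := K - K₁)
    (D := M) hR hM0 hfdiff hFdiff (by
      intro T hT
      have h1 := hclose T hT
      rw [mem_ball, dist_zero_right] at hT
      have him : (s + D * T).im - y = (s.im - y) + D * T.im := by simp; ring
      have h2 := hB _ h1
      have h3 : ‖Complex.exp (I * T)‖ = Real.exp (-T.im) := by
        rw [Complex.norm_exp]; simp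
      have h4 : ‖(g s)⁻¹‖ ≤ r / ε := by
        rw [norm_inv, inv_le_comm₀ hgs0 (by positivity), inv_div, div_le_iff₀ hr0]
        exact hgs
      simp only [hf, norm_mul]
      rw [h3]
      calc ‖(g s)⁻¹‖ * (‖g (s + D * T)‖ * Real.exp (-T.im))
          ≤ r / ε * (B / r * Real.exp (((s + D * T).im - y) / D) * Real.exp (-T.im)) := by gcongr
        _ = B / ε * Real.exp ((s.im - y) / D) := by
          rw [him]
          have : Real.exp ((s.im - y + D * T.im) / D) = Real.exp ((s.im - y) / D) *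
              Real.exp T.im := by
            rw [← Real.exp_add]; congr 1; field_simp
          rw [this, mul_assoc (B / r), mul_assoc (Real.exp ((s.im - y) / D)), ← Real.exp_add]
          simp
          field_simp
        _ ≤ B / ε * Real.exp K₁ := by
          have h5 : (s.im - y) / D ≤ K₁ := by
            rw [div_le_iff₀ hD]; exact (le_abs_self _).trans hsi
          gcongr
        _ = Real.exp M := by
          rw [hM, Real.exp_add, Real.exp_log (by positivity)])
    (by simp [hf, hgs1]) (by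
      intro T hT
      rw [hf2 T hT, hf1 T hT, hgQ _ (hin T hT)]
      simp only [hf, hF]
      ring_nf
      simp only [I_sq]
      ring) T₁ (by rw [mem_closedBall, dist_zero_right]; exact hT₁n)
  have e1 : F T₁ = (D : ℂ) ^ 2 * Q (x₀ + y * I) + 1 := by
    simp only [hF, hT₁]
    congr 3
    field_simp
    ring
  rw [e1] at key
  refine key.trans (le_of_eq ?_)
  simp
  ring

/-- (2b), the place: at some place of the line `Im = y` the function `g` is small on a large box -/
theorem place {Q : ℂ → ℂ} (hg : DifferentiableOn ℂ g (St b)) (hQ : DifferentiableOn ℂ Q (St b))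
    (hgQ : ∀ z ∈ St b, deriv (deriv g) z = Q z * g z) (hp : ∀ z ∈ St b, g (z + 1) = g z)
    (hQp : ∀ z ∈ St b, Q (z + 1) = Q z)
    (hr : ∀ x : ℝ, (g x).im = 0 ∧ Real.exp (-l) ≤ (g x).re)
    {y D r B ε K K₁ : ℝ} (hD : 0 < D) (hr0 : 0 < r) (hy : |y| + K * D < b)
    (hε : 0 < ε) (hεB : ε ≤ B) (hK₁ : 0 ≤ K₁) (hK : 0 < K) (hKK : 17 * K₁ ≤ K)
    (hB : ∀ z : ℂ, |z.im - y| ≤ K * D → ‖g z‖ ≤ B / r * Real.exp ((z.im - y) / D))
    (hδ : 200000 * (Real.log (B / ε) + K₁ + 1) ^ 4 / (K - K₁) ^ 2 +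
        600 * (Real.log (B / ε) + K₁ + 1) ^ 2 / (K - K₁) < 1) :
    ∃ x₀ : ℝ, ∀ z : ℂ, ‖z - (x₀ + y * I)‖ ≤ K₁ * D → ‖g z‖ * r < ε := by
  by_contra hno
  push Not at hno
  have hKD : 0 < K * D := by positivity
  have hyb : |y| < b := by linarith
  have hb : 0 < b := (abs_nonneg y).trans_lt hyb
  set δ : ℝ := 200000 * (Real.log (B / ε) + K₁ + 1) ^ 4 / (K - K₁) ^ 2 +
        600 * (Real.log (B / ε) + K₁ + 1) ^ 2 / (K - K₁) with hδd
  have hall : ∀ x : ℝ, ‖(D : ℂ) ^ 2 * Q (x + y * I) + 1‖ ≤ δ := by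
    intro x
    obtain ⟨s, hs, hgs⟩ := hno x
    exact Q_near hg hQ hgQ hD hr0 hy hε hεB hK₁ hK hKK hB hs hgs
  have hcQ : Continuous fun x : ℝ => Q (x + y * I) :=
    hQ.continuousOn.comp_continuous (by fun_prop) fun x => line_mem_St hyb x
  have h1 : ‖∫ x in (0 : ℝ)..1, ((D : ℂ) ^ 2 * Q (x + y * I) + 1)‖ ≤ δ * |1 - 0| :=
    intervalIntegral.norm_integral_le_of_norm_le_const fun x _ => hall x
  rw [intervalIntegral.integral_add ((hcQ.const_mul _).intervalIntegrable _ _) (by simp),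
    intervalIntegral.integral_const_mul, shift hQ hQp hyb] at h1
  simp only [intervalIntegral.integral_const, sub_zero, one_smul, abs_one, mul_one] at h1
  have h2 := mean_nonneg hb hg hQ hgQ hp hr
  have h3 : ((D : ℂ) ^ 2 * (∫ x in (0 : ℝ)..1, Q x) + 1).re =
      D ^ 2 * (∫ x in (0 : ℝ)..1, Q x).re + 1 := by
    rw [add_re, one_re]
    congr 1
    have : (D : ℂ) ^ 2 = ((D ^ 2 : ℝ) : ℂ) := by push_cast; ring
    rw [this, re_ofReal_mul]
  have h4 := (Complex.re_le_norm _).trans h1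
  rw [h3] at h4
  have h5 : 0 ≤ D ^ 2 * (∫ x in (0 : ℝ)..1, Q x).re := by positivity
  linarith

end

end Vale.Agent.P097.H557.DE
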